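import Vale.Agent.P153.RSW.Stm

/-! Abstract RSW theory: averaging a monotone family. -/

open Set Filter Topology

namespace Vale.Agent.P153.RSW

theorem avg_shift {f : ℕ → ℝ} (h0 : ∀ t, 0 ≤ f t) (h1 : ∀ t, f t ≤ 1) (T r : ℕ) :
    ∑ t ∈ Finset.range T, f (t + r) ≤ ∑ t ∈ Finset.range T, f t + r ∧
      ∑ t ∈ Finset.range T, f t ≤ ∑ t ∈ Finset.range T, f (t + r) + r := by
  have e1 := Finset.sum_range_add f T r
  have e2 := Finset.sum_range_add f r T
  rw [add_comm r T, e1] at e2
  have b : ∀ g : ℕ → ℕ, 0 ≤ ∑ t ∈ Finset.range r, f (g t) ∧ ∑ t ∈ Finset.range r, f (g t) ≤ r :=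
    fun g => ⟨Finset.sum_nonneg fun t _ => h0 _, by
      simpa using Finset.sum_le_card_nsmul (Finset.range r) _ 1 fun t _ => h1 (g t)⟩
  have b1 := b fun t => T + t
  have b2 := b fun t => t
  simp only [add_comm r] at e2
  constructor <;> linarith [b1.1, b1.2, b2.1, b2.2]

theorem avg_hyp : Avg := by
  intro Ω e P R r T hT h1 h2 h3 h4 h5 h6
  have p : (0 : ℝ) < T := by exact_mod_cast hT
  have le1 : ∀ t A, P t A ≤ 1 := fun t A => by
    have h := h4 t A Aᶜ disjoint_compl_right
    rw [union_compl_self, h3] at h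
    linarith [h2 t Aᶜ]
  refine ⟨h1, fun A => div_nonneg (Finset.sum_nonneg fun t _ => h2 t A) p.le, ?_,
    fun A B h => ?_, fun A B hA hB => ?_, fun g hg S A B s1 s2 => ?_⟩
  · simp [h3, p.ne']
  · simp only [h4 _ A B h, Finset.sum_add_distrib, add_div]
  · have m : Monovary (fun t => P t A) fun t => P t B := by
      rcases h6 with h | h
      · exact (monotone_nat_of_le_succ fun t => h.1 t A hA).monovary
          (monotone_nat_of_le_succ fun t => h.1 t B hB)
      · exact (antitone_nat_of_succ_le fun t => h.1 t A hA).monovary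
          (antitone_nat_of_succ_le fun t => h.1 t B hB)
    have c := (m.monovaryOn (Finset.range T : Set ℕ)).sum_mul_sum_le_card_mul_sum
    rw [Finset.card_range] at c
    have d := mul_le_mul_of_nonneg_left
      (Finset.sum_le_sum fun t (_ : t ∈ Finset.range T) => h5 t A B hA hB) p.le
    rw [div_mul_div_comm, div_le_div_iff₀ (by positivity) p]
    nlinarith [mul_le_mul_of_nonneg_right (c.trans d) p.le]
  · rw [← add_div]
    refine div_le_div_of_nonneg_right ?_ p.le
    rcases h6 with h | h
    · exact (Finset.sum_le_sum fun t _ => h.2 t g hg S A B s1 s2).trans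
        (avg_shift (fun t => h2 t _) (fun t => le1 t _) T r).1
    · exact (avg_shift (fun t => h2 t _) (fun t => le1 t _) T r).2.trans
        (add_le_add_left (Finset.sum_le_sum fun t _ => h.2 t g hg S A B s1 s2) _)

end Vale.Agent.P153.RSW
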