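import Vale.Agent.P153.RSW.Stm

/-! Abstract RSW theory: a chain of bridges contains a long crossing. -/

open Set Filter Topology

namespace Vale.Agent.P153.RSW

theorem chain_step (h : PLB) {E : V → V → Prop} (hE : ∀ x y, E x y → E y x) {S T U : Set V}
    {a a' b b' : ℤ} (hU : U ⊆ {v | 0 ≤ v.2}) (hS : S ⊆ U) (hT : T ⊆ U) (h1 : a < a')
    (h2 : a' < b) (h3 : b < b') (ha : (a, (0 : ℤ)) ∈ S) (hc : Conn E S (a, 0) (b, 0))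
    (ha' : (a', (0 : ℤ)) ∈ T) (hc' : Conn E T (a', 0) (b', 0)) : Conn E U (a, 0) (a', 0) := by
  obtain ⟨v, hv, hv'⟩ := h {v | v ∈ S ∧ Conn E S (a, 0) v} {v | v ∈ T ∧ Conn E T (a', 0) v}
    a a' b b' (fun v hv => hU (hS hv.1)) (fun v hv => hU (hT hv.1)) h1 h2 h3 ⟨ha, cn_refl⟩
    (cn_all (cn_cluster hc)) ⟨ha', cn_refl⟩ (cn_all (cn_cluster hc'))
  exact cn_trans (cn_mono (fun _ _ k => k) hS hv.2)
    (cn_symm hE (cn_mono (fun _ _ k => k) hT hv'.2))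

theorem chain_mem {w : ℕ} {c : ℤ} {a : V} (h : a ∈ tr (c, 0) '' I0 w) :
    ∃ x : ℤ, a = (x, 0) ∧ c - w ≤ x ∧ x ≤ c + w := by
  obtain ⟨u, ⟨h1, h2, h3⟩, rfl⟩ := h
  refine ⟨u.1 + c, Prod.ext rfl ?_, by omega, by omega⟩
  show u.2 + 0 = 0
  omega

theorem chain (h : PLB) : Chain := by
  intro E w n L d S hE hd hL hS hab
  have hx : ∀ t, ∃ a b : ℤ, t ≤ n → (((t : ℤ) - 1) * (2 * w + 1) - w ≤ a ∧
      a ≤ ((t : ℤ) - 1) * (2 * w + 1) + w) ∧ (((t : ℤ) - 1 + d) * (2 * w + 1) - w ≤ b ∧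
      b ≤ ((t : ℤ) - 1 + d) * (2 * w + 1) + w) ∧ (a, (0 : ℤ)) ∈ S t ∧
      Conn E (S t) (a, 0) (b, 0) := fun t => by
    by_cases ht : t ≤ n
    · obtain ⟨a, ha, b, hb, h1, h2⟩ := hab t ht
      obtain ⟨x, rfl, hx⟩ := chain_mem ha
      obtain ⟨y, rfl, hy⟩ := chain_mem hb
      exact ⟨x, y, fun _ => ⟨hx, hy, h1, h2⟩⟩
    · exact ⟨0, 0, fun k => absurd k ht⟩
  choose a b hab using hx
  have hs : (2 * (w : ℤ) + 1) * 2 ≤ (2 * w + 1) * d :=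
    mul_le_mul_of_nonneg_left hd (by positivity)
  have hw : (0 : ℤ) ≤ w := by positivity
  have key : ∀ t ≤ n, Conn E {v | 0 ≤ v.2 ∧ v.2 ≤ 129 * (2 * (w : ℤ) + 1)} (a 0, 0) (a t, 0) := by
    intro t ht
    induction t with
    | zero => exact cn_refl
    | succ t ih =>
      have ht' := Nat.le_of_succ_le ht
      obtain ⟨⟨h1, h2⟩, ⟨h3, h4⟩, h5, h6⟩ := hab t ht'
      obtain ⟨⟨k1, k2⟩, ⟨k3, k4⟩, k5, k6⟩ := hab (t + 1) ht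
      push_cast at k1 k2 k3 k4
      exact cn_trans (ih ht') (chain_step h hE (fun v hv => hv.1) (hS t ht') (hS _ ht)
        (by linarith) (by linarith) (by linarith) h5 h6 k5 k6)
  obtain ⟨⟨-, h2⟩, -, h5, -⟩ := hab 0 (Nat.zero_le n)
  obtain ⟨-, ⟨k3, -⟩, -, k6⟩ := hab n le_rfl
  have hL0 : (0 : ℤ) ≤ L := by positivity
  push_cast at h2
  have hφ : ∀ x y : V, Adj x y → y.1 ≤ x.1 + 1 := fun x y k => by
    rw [adj_iff] at k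
    omega
  obtain ⟨c, c1, c2, c3, -⟩ := cn_first (fun v => v.1) hφ (h := L)
    (cn_trans (key n le_rfl) (cn_mono (fun _ _ k => k) (hS n le_rfl) k6)) (hS 0 (Nat.zero_le n) h5)
    (show a 0 ≤ L by linarith) (show (L : ℤ) ≤ b n by linarith)
  obtain ⟨u, u1, u2, -, u4⟩ := cn_last hE (fun v => v.1) hφ (h := 0) c3
    ⟨hS 0 (Nat.zero_le n) h5, show a 0 ≤ L by linarith⟩ (show a 0 ≤ 0 by linarith)
    (show 0 ≤ c.1 by linarith)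
  have hb : ({v | 0 ≤ v.2 ∧ v.2 ≤ 129 * (2 * (w : ℤ) + 1)} ∩ {v : V | v.1 ≤ L}) ∩
      {v : V | 0 ≤ v.1} ⊆ box (129 * (2 * w + 1)) L := fun v hv =>
    ⟨hv.1.1.1, by push_cast; exact hv.1.1.2, hv.2, hv.1.2⟩
  exact ⟨u, c, u1, c1, hb ⟨u2, u1.ge⟩, cn_mono (fun _ _ k => k) hb u4⟩

end Vale.Agent.P153.RSW
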