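import Vale.Agent.P153.RSW.Stm

/-! Abstract RSW theory: bridges give long crossings. -/

open Set Filter Topology

namespace Vale.Agent.P153.RSW

theorem l1_mem {a v : V} {S : Set V} : v ∈ tr a '' S ↔ v - a ∈ S := by
  constructor
  · rintro ⟨u, hu, rfl⟩
    simpa [tr] using hu
  · intro h
    exact ⟨v - a, h, by simp [tr]⟩

theorem l1_round (w : ℕ) (i : ℤ) : ∃ c : ℤ, c * (2 * (w : ℤ) + 1) ≤ i + w ∧
    i + w < c * (2 * (w : ℤ) + 1) + (2 * (w : ℤ) + 1) := by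
  have hs : (0 : ℤ) < 2 * (w : ℤ) + 1 := by positivity
  refine ⟨(i + w) / (2 * (w : ℤ) + 1), Int.ediv_mul_le _ hs.ne', ?_⟩
  have := Int.lt_ediv_add_one_mul_self (i + w) hs
  linarith

/-- The classes of bridges. -/
theorem l1_cls : ∃ t : Finset (ℤ × ℤ), ∀ c, c ∈ t ↔
    ((-130 ≤ c.1 ∧ c.1 ≤ 130) ∧ -130 ≤ c.2 ∧ c.2 ≤ 130) ∧ c.1 + 2 ≤ c.2 := by
  have : ∀ n : ℤ, ∃ t : Finset (ℤ × ℤ), ∀ c, c ∈ t ↔
      ((-n ≤ c.1 ∧ c.1 ≤ n) ∧ -n ≤ c.2 ∧ c.2 ≤ n) ∧ c.1 + 2 ≤ c.2 := fun n =>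
    ⟨(Finset.Icc (-n) n ×ˢ Finset.Icc (-n) n).filter fun c => c.1 + 2 ≤ c.2, fun c => by
      simp only [Finset.mem_filter, Finset.mem_product, Finset.mem_Icc]⟩
  exact this 130

theorem l1_hS {w : ℕ} {v : V} : v ∈ hS w ↔ 0 ≤ v.2 ∧ -(129 * (2 * (w : ℤ) + 1)) ≤ v.1 ∧
    v.1 + v.2 ≤ 129 * (2 * (w : ℤ) + 1) ∧ v.2 ≤ 129 * (2 * (w : ℤ) + 1) := by
  simp only [hS, mem_inter_iff, mem_ofPred_eq, mem_hex0]
  omega

theorem l1_cover {Ω : Type} (e : Ω → V → V → Prop) (w : ℕ) {t : Finset (ℤ × ℤ)}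
    (ht : ∀ c, c ∈ t ↔ ((-130 ≤ c.1 ∧ c.1 ≤ 130) ∧ -130 ≤ c.2 ∧ c.2 ≤ 130) ∧ c.1 + 2 ≤ c.2) :
    Wide e w ⊆ ⋃ c ∈ t,
    Ev e (hS w) (tr (c.1 * (2 * (w : ℤ) + 1), 0) '' I0 w)
      (tr (c.2 * (2 * (w : ℤ) + 1), 0) '' I0 w) := by
  rintro ω ⟨i, j, h1, h2, h3⟩
  have h4 := cn_mem h3 h2
  obtain ⟨c, a1, a2⟩ := l1_round w i
  obtain ⟨d, b1, b2⟩ := l1_round w j
  have hi := l1_hS.1 h2
  have hj := l1_hS.1 h4
  simp only at hi hj
  have hs : (0 : ℤ) < 2 * (w : ℤ) + 1 := by positivity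
  have hw : (0 : ℤ) ≤ w := Nat.cast_nonneg w
  have k1 : -130 < c := lt_of_mul_lt_mul_right (by linarith [hi.2.1]) hs.le
  have k2 : d < 130 := lt_of_mul_lt_mul_right (by linarith [hj.2.2.1]) hs.le
  have k3 : c + 1 < d := lt_of_mul_lt_mul_right (by linarith) hs.le
  refine mem_iUnion₂.2 ⟨(c, d), ?_, (i, 0), ?_, (j, 0), ?_, h2, h3⟩
  · rw [ht]
    simp only
    omega
  · rw [l1_mem]
    refine ⟨by simp, ?_, ?_⟩ <;> simp only [Prod.fst_sub] <;> linarith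
  · rw [l1_mem]
    refine ⟨by simp, ?_, ?_⟩ <;> simp only [Prod.fst_sub] <;> linarith

theorem l1 (h : Pick) (h2 : Chain) : L1 := by
  intro K
  obtain ⟨T, hT⟩ := l1_cls
  obtain ⟨f, hf, hP⟩ := h T.card
  refine ⟨_, (hf.pow K).pow 1, fun p hp => ?_⟩
  obtain ⟨η, hη, hQ⟩ := hP p hp
  have hx := (hf.pow K).1 p hp
  simp only at hx
  set x := f p ^ (K + 1) with hxd
  refine ⟨min η (x * (1 - x)), lt_min hη (mul_pos hx.1 (sub_pos.2 hx.2)), ?_⟩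
  intro Ω e P R H w L b hL hb hR hW g hg hgb
  obtain ⟨c, hc, hq⟩ := hQ Ω e P R (H.weak (min_le_left _ _)) (ℤ × ℤ) T (fun _ => hS w)
    (fun c => tr (c.1 * (2 * (w : ℤ) + 1), 0) '' I0 w)
    (fun c => tr (c.2 * (2 * (w : ℤ) + 1), 0) '' I0 w) _ le_rfl (l1_cover e w hT) hW
  rw [hT] at hc
  have hs : (0 : ℤ) < 2 * (w : ℤ) + 1 := by positivity
  have hL' : (L : ℤ) ≤ K * (2 * (w : ℤ) + 1) := by exact_mod_cast hL
  have hR' : ((K : ℤ) + 400) * (2 * (w : ℤ) + 1) ≤ R := by exact_mod_cast hR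
  have hK : 0 ≤ (K : ℤ) * (2 * (w : ℤ) + 1) := by positivity
  have a1 : hS w ⊆ hex 0 R := fun v hv => by
    have := l1_hS.1 hv
    rw [add_mul] at hR'
    rw [mem_hex0]
    omega
  have a2 : ∀ t ≤ K, tr (((t : ℤ) - 1 - c.1) * (2 * (w : ℤ) + 1), 0) '' hS w ⊆ hex 0 R := by
    intro t ht v hv
    have h3 := l1_hS.1 (l1_mem.1 hv)
    simp only [Prod.fst_sub, Prod.snd_sub, sub_zero] at h3
    have ht' : (t : ℤ) ≤ K := by exact_mod_cast ht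
    have h4 : ((t : ℤ) - 1 - c.1) * (2 * (w : ℤ) + 1) ≤ (K + 130) * (2 * (w : ℤ) + 1) :=
      mul_le_mul_of_nonneg_right (by omega) hs.le
    have h5 : -131 * (2 * (w : ℤ) + 1) ≤ ((t : ℤ) - 1 - c.1) * (2 * (w : ℤ) + 1) :=
      mul_le_mul_of_nonneg_right (by omega) hs.le
    rw [add_mul] at hR' h4
    rw [mem_hex0]
    omega
  have a3 := H.prod (Finset.range (K + 1)) (fun t : ℕ =>
    Ev e (tr (((t : ℤ) - 1 - c.1) * (2 * (w : ℤ) + 1), 0) '' hS w)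
      (tr (((t : ℤ) - 1 - c.1) * (2 * (w : ℤ) + 1), 0) ''
        (tr (c.1 * (2 * (w : ℤ) + 1), 0) '' I0 w))
      (tr (((t : ℤ) - 1 - c.1) * (2 * (w : ℤ) + 1), 0) ''
        (tr (c.2 * (2 * (w : ℤ) + 1), 0) '' I0 w))) (hf.1 p hp).1.le (fun _ _ => up_ev)
    fun t ht => hq _ (isSym_tr _) a1 (a2 t (Nat.lt_succ_iff.1 (Finset.mem_range.1 ht)))
  rw [Finset.card_range] at a3
  have a4 : x ≤ P (Ev e (box (129 * (2 * w + 1)) L) {v | v.1 = 0} {v | v.1 = L}) := by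
    refine a3.trans (H.mono fun ω hω => ?_)
    obtain ⟨u, v, h3, h4, h5, h6⟩ := h2 (e ω) w K L (c.2 - c.1)
      (fun t => tr (((t : ℤ) - 1 - c.1) * (2 * (w : ℤ) + 1), 0) '' hS w) (H.symm ω) (by omega) hL'
      (fun t _ v hv => by
        have h3 := l1_hS.1 (l1_mem.1 hv)
        simp only [Prod.snd_sub, sub_zero] at h3
        exact ⟨h3.1, h3.2.2.2⟩)
      (fun t ht => by
        obtain ⟨u, hu, v, hv, h3, h4⟩ :=
          mem_iInter₂.1 hω t (Finset.mem_range.2 (Nat.lt_succ_iff.2 ht))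
        rw [l1_mem, l1_mem] at hu hv
        refine ⟨u, l1_mem.2 ?_, v, l1_mem.2 ?_, h3, h4⟩
        · convert hu using 1
          ext <;> simp only [Prod.fst_sub, Prod.snd_sub] <;> ring
        · convert hv using 1
          ext <;> simp only [Prod.fst_sub, Prod.snd_sub] <;> ring)
    exact ⟨u, h3, v, h4, h5, h6⟩
  have a5 : box (129 * (2 * w + 1)) L ⊆ box b L := fun v hv =>
    ⟨hv.1, hv.2.1.trans (by exact_mod_cast hb), hv.2.2⟩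
  have a6 : box (129 * (2 * w + 1)) L ⊆ hex 0 R := fun v hv => by
    simp only [box, mem_ofPred_eq] at hv
    rw [add_mul] at hR'
    rw [mem_hex0]
    omega
  have a7 := H.sym g hg _ {v | v.1 = 0} {v | v.1 = L} a6 ((image_mono a5).trans hgb)
  have a8 := H.mono (ev_mono (e := e) (A := g '' {v | v.1 = 0}) (B := g '' {v | v.1 = L})
    (image_mono (f := g) a5) inter_subset_left inter_subset_left)
  have a9 := min_le_right η (x * (1 - x))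
  change x ^ (1 + 1) ≤ P (Ev e _ _ _)
  have a10 : x ^ (1 + 1) = x - x * (1 - x) := by ring
  linarith

end Vale.Agent.P153.RSW
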