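import Vale.Agent.P153.RSW.Stm

/-! Bridges give circuits. -/

open Set Filter Topology

namespace Vale.Agent.P153.RSW

theorem l1c_a {K a s : ℕ} (h : a ≤ K * s) : 3 * (a + 129 * s) ≤ (3 * K + 387) * s := by
  nlinarith

theorem l1c_b {K R s : ℕ} (h : (3 * K + 800) * s ≤ R) : (3 * K + 387 + 400) * s ≤ R := by
  zify at h ⊢
  nlinarith [Int.natCast_nonneg s]

theorem l1c (h : L1) (h2 : Tri) : L1c := by
  intro K
  obtain ⟨f, hf, H⟩ := h (3 * K + 387)
  refine ⟨fun x => f x ^ (2 + 1), hf.pow 2, fun p hp => ?_⟩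
  obtain ⟨η, hη, H⟩ := H p hp
  refine ⟨η, hη, fun Ω e P R hH w a z h1 h3 h4 h5 h6 => ?_⟩
  have key := H Ω e P R hH w (3 * (a + 129 * (2 * w + 1))) (a + 129 * (2 * w + 1) - a)
    (l1c_a h3) (by rw [Nat.add_sub_cancel_left]) (l1c_b h4) h6
  have hs : IsSym (side (a + 129 * (2 * w + 1))) := isSym_tr _
  have k1 := key _ (isSym_trans hs (isSym_tr z)) (by
    rintro _ ⟨v, hv, rfl⟩
    simp only [box, mem_ofPred_eq, nrm] at hv h5
    simp only [mem_hex0, side, tr, Equiv.trans_apply, Equiv.coe_addRight, Prod.fst_add,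
      Prod.snd_add]
    omega)
  have k2 := key _ (isSym_trans (isSym_trans hs isSym_r3) (isSym_tr z)) (by
    rintro _ ⟨v, hv, rfl⟩
    simp only [box, mem_ofPred_eq, nrm] at hv h5
    simp only [mem_hex0, side, tr, r3, Equiv.trans_apply, Equiv.coe_addRight, Prod.fst_add,
      Prod.snd_add, Equiv.coe_fn_mk]
    omega)
  have k3 := key _ (isSym_trans (isSym_trans (isSym_trans hs isSym_r3) isSym_r3) (isSym_tr z)) (by
    rintro _ ⟨v, hv, rfl⟩
    simp only [box, mem_ofPred_eq, nrm] at hv h5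
    simp only [mem_hex0, side, tr, r3, Equiv.trans_apply, Equiv.coe_addRight, Prod.fst_add,
      Prod.snd_add, Equiv.coe_fn_mk]
    omega)
  have h0 := (hf.1 p hp).1.le
  refine le_trans ?_ (hH.mono (h2 Ω e z a (a + 129 * (2 * w + 1)) hH.symm h1 (by omega)))
  refine le_trans ?_ (hH.fkg _ _ (Up.inter up_ev up_ev) up_ev)
  beta_reduce
  rw [pow_succ]
  refine mul_le_mul ?_ k3 h0 (hH.nonneg _)
  refine le_trans ?_ (hH.fkg _ _ up_ev up_ev)
  rw [sq]
  exact mul_le_mul k1 k2 h0 (hH.nonneg _)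

end Vale.Agent.P153.RSW
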