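import Vale.Agent.P153.RSW.Stm

/-! Arms contain half plane arms. -/

open Set Filter Topology

namespace Vale.Agent.P153.RSW

/-- Rotation by `r` times sixty degrees. -/
def l2Rot (r : ℕ) : V ≃ V := (show Equiv.Perm V from rot) ^ r

theorem l2_succ (r : ℕ) (v : V) : l2Rot (r + 1) v = (-(l2Rot r v).2, (l2Rot r v).1 + (l2Rot r v).2) := by
  rw [l2Rot, pow_succ', Equiv.Perm.mul_apply]
  rfl

theorem l2_sym (r : ℕ) : IsSym (l2Rot r) := fun x y => by
  induction r with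
  | zero => exact Iff.rfl
  | succ r ih => rw [l2_succ, l2_succ, ← ih]; exact isSym_rot _ _

theorem l2_nrm (r : ℕ) (v : V) : nrm (l2Rot r v) = nrm v := by
  induction r with
  | zero => rfl
  | succ r ih =>
    rw [l2_succ, ← ih]
    simp only [nrm]
    omega

theorem l2_ex (v : V) : ∃ r < 6, (l2Rot r v).2 = nrm v := by
  have h0 : l2Rot 0 v = v := rfl
  have h1 := l2_succ 0 v
  have h2 := l2_succ 1 v
  have h3 := l2_succ 2 v
  have h4 := l2_succ 3 v
  have h5 := l2_succ 4 v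
  by_contra h
  have k := fun r hr e => h ⟨r, hr, e⟩
  have k0 := k 0 (by omega)
  have k1 := k 1 (by omega)
  have k2 := k 2 (by omega)
  have k3 := k 3 (by omega)
  have k4 := k 4 (by omega)
  have k5 := k 5 (by omega)
  simp only [Prod.ext_iff, zero_add, Nat.reduceAdd, h0, nrm, imp_false] at *
  omega

/-- Rotation followed by a translation. -/
def l2G (w a : ℕ) (i : ℕ × ℤ) : V ≃ V :=
  (l2Rot i.1).trans (tr (-(i.2 * (2 * (w : ℤ) + 1)), -(a : ℤ)))

theorem l2_symG (w a : ℕ) (i : ℕ × ℤ) : IsSym (l2G w a i) := isSym_trans (l2_sym _) (isSym_tr _)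

theorem l2_cov {Ω : Type} {e : Ω → V → V → Prop} (he : ∀ ω x y, e ω x y → e ω y x)
    {K w a b : ℕ} (h1 : a + 1302 * (2 * w + 1) < b) (h2 : b ≤ K * (2 * w + 1)) :
    Ar e a b ⊆ ⋃ i ∈ Finset.range 6 ×ˢ Finset.Icc (-(K : ℤ) - 1) (K + 1),
      Ev e (l2G w a i ⁻¹' triS w ∩ hex 0 b) (l2G w a i ⁻¹' I0 w) (l2G w a i ⁻¹' triB w) := by
  rintro ω ⟨x, hx, y, hy, h3, h4⟩
  obtain ⟨r, hr, h5⟩ := l2_ex y
  have h6 : ∀ n : ℕ, ∀ v ∈ hex 0 n, l2Rot r v ∈ hex 0 n := fun n v hv => by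
    simpa only [hex, mem_ofPred_eq, sub_zero, l2_nrm] using hv
  rw [show nrm y = b from hy] at h5
  obtain ⟨c, h7, h8, -, h9⟩ := cn_last (he ω) (fun v => (l2Rot r v).2) (h := a)
    (fun u v k => by have := adj_iff.1 ((l2_sym r u v).2 k); omega) h4 h3
    (mem_hex0.1 (h6 a x hx)).2.2.2.1 (by omega)
  have hc := mem_hex0.1 (h6 b c h8)
  have hs : (0 : ℤ) < 2 * w + 1 := by omega
  have e1 := Int.mul_ediv_add_emod ((l2Rot r c).1 + w) (2 * w + 1)
  have e2 := Int.emod_nonneg ((l2Rot r c).1 + w) hs.ne'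
  have e3 := Int.emod_lt_of_pos ((l2Rot r c).1 + w) hs
  generalize ((l2Rot r c).1 + w) / (2 * w + 1) = m at e1
  have h2' : (b : ℤ) ≤ K * (2 * w + 1) := by exact_mod_cast h2
  have hg : ∀ v, (l2G w a (r, m) v).1 = (l2Rot r v).1 - (2 * w + 1) * m ∧
      (l2G w a (r, m) v).2 = (l2Rot r v).2 - a := fun v =>
    ⟨by rw [mul_comm]; rfl, rfl⟩
  obtain ⟨d, k1, -, k2, -⟩ := cn_first
    (fun v => max ((l2G w a (r, m) v).1 + (l2G w a (r, m) v).2) (-(l2G w a (r, m) v).1))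
    (h := 651 * (2 * (w : ℤ) + 1))
    (fun u v k => by have := adj_iff.1 ((l2_symG w a (r, m) u v).2 k); omega) h9 ⟨h8, h7.ge⟩
    (by have := hg c; omega) (by have := hg y; omega)
  refine mem_biUnion (x := (r, m)) (Finset.mem_product.2 ⟨Finset.mem_range.2 hr,
    Finset.mem_Icc.2 ⟨?_, ?_⟩⟩) ⟨c, ?_, d, ?_, ⟨?_, h8⟩, cn_mono (fun _ _ k => k) ?_ k2⟩
  · refine le_of_mul_le_mul_left ?_ hs
    linarith [hc.1]
  · refine le_of_mul_le_mul_left ?_ hs
    linarith [hc.2.1]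
  · have := hg c
    simp only [I0, mem_preimage, mem_ofPred_eq]
    omega
  · simp only [triB, mem_preimage, mem_ofPred_eq]
    omega
  · have := hg c
    simp only [triS, mem_preimage, mem_ofPred_eq]
    omega
  · rintro v ⟨⟨a1, a2⟩, a3⟩
    have := hg v
    refine ⟨?_, a1⟩
    simp only [triS, mem_preimage, mem_ofPred_eq] at a2 a3 ⊢
    omega

theorem l2 (h : Pick) : L2 := fun K => by
  obtain ⟨f, hf, h⟩ := h (6 * (2 * K + 3))
  refine ⟨f, hf, fun p hp => ?_⟩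
  obtain ⟨η, hη, h⟩ := h p hp
  refine ⟨η, hη, fun Ω e P R hH w a b h1 h2 h3 h4 h5 => ?_⟩
  obtain ⟨i, -, k⟩ := h Ω e P R hH _ _ _ _ _ _
    (by rw [Finset.card_product, Finset.card_range, Int.card_Icc]; omega)
    (l2_cov hH.symm h1 h2) h5
  have h6 : l2G w a i '' (l2G w a i ⁻¹' triS w ∩ hex 0 b) ⊆ triS w :=
    image_subset_iff.2 inter_subset_left
  refine (k _ (l2_symG w a i) (fun v hv => ?_) (h6.trans fun v hv => ?_)).trans
    (hH.mono (ev_mono h6 (inter_subset_left.trans (image_preimage_subset _ _))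
      (inter_subset_left.trans (image_preimage_subset _ _))))
  · have := mem_hex0.1 hv.2
    rw [mem_hex0]
    omega
  · simp only [triS, mem_ofPred_eq] at hv
    rw [mem_hex0]
    omega

end Vale.Agent.P153.RSW
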