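import Vale.Agent.P153.RSW.Stm

/-! Arms with little room below contain legs of a barrier. -/

open Set Filter Topology

namespace Vale.Agent.P153.RSW

theorem l3_img {Ω : Type} {e : Ω → V → V → Prop} {S A B S' A' B' : Set V} (g : V ≃ V)
    (h1 : ∀ v ∈ S, g v ∈ S') (h2 : ∀ v ∈ A, g v ∈ A') (h3 : ∀ v ∈ S, v ∈ B → g v ∈ B') :
    Ev e (g '' S) (g '' A) (g '' B) ⊆ Ev e S' A' B' := by
  refine ev_mono (image_subset_iff.2 h1) (inter_subset_left.trans (image_subset_iff.2 h2)) ?_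
  rw [← image_inter g.injective]
  exact image_subset_iff.2 fun v hv => h3 v hv.2 hv.1

theorem l3_aux {Ω : Type} {e : Ω → V → V → Prop} {P : Set Ω → ℝ} {R : ℕ} {η q : ℝ}
    (H : Hyp e P R η) {S A B : Set V} {k l w : ℕ} (hR : 1400 * (2 * w + 1) ≤ R)
    (hq : ∀ g : V ≃ V, IsSym g → S ⊆ hex 0 R → g '' S ⊆ hex 0 R →
      q ≤ P (Ev e (g '' S) (g '' A) (g '' B))) (hS0 : S ⊆ dS w) (g : V ≃ V) (hg : IsSym g)
    (h1 : ∀ v ∈ S, g v ∈ hS w) (h2 : ∀ v ∈ A, g v ∈ hex (gate k) l)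
    (h3 : ∀ v ∈ S, v ∈ B → (g v).2 = 0 ∧ 3 * (2 * (w : ℤ) + 1) < (g v).1) :
    q ≤ P (Al e k l w) ∧ q ≤ P (Al' e k l w) := by
  have a1 : S ⊆ hex 0 R := fun v hv => by
    have := hS0 hv
    simp only [dS, mem_ofPred_eq, mem_hex0] at this ⊢
    omega
  have a2 : hS w ⊆ hex 0 R := fun v hv => by
    simp only [hS, mem_inter_iff, mem_ofPred_eq, mem_hex0] at hv ⊢
    omega
  have a3 : ∀ v ∈ S, (g.trans mir) v ∈ hS w := fun v hv => by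
    have := h1 v hv
    simp only [hS, mem_inter_iff, mem_ofPred_eq, mem_hex0, Equiv.trans_apply, mir,
      Equiv.coe_fn_mk] at this ⊢
    omega
  refine ⟨(hq g hg a1 (image_subset_iff.2 fun v hv => a2 (h1 v hv))).trans
      (H.mono (l3_img g h1 h2 h3)),
    (hq _ (isSym_trans hg isSym_mir) a1 (image_subset_iff.2 fun v hv => a2 (a3 v hv))).trans
      (H.mono (l3_img _ a3 (fun v hv => ?_) fun v hv hv' => ?_))⟩
  · have := h2 v hv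
    simp only [mem_hex, gate, Equiv.trans_apply, mir, Equiv.coe_fn_mk] at this ⊢
    omega
  · have := h3 v hv hv'
    simp only [mem_ofPred_eq, Equiv.trans_apply, mir, Equiv.coe_fn_mk] at this ⊢
    omega

/-- First map. -/
def l3_g1 (c : ℤ) : V ≃ V :=
  ⟨fun x => (x.1 - c, -x.1 - x.2 + 2 * c), fun x => (x.1 + c, -x.1 - x.2 + c),
    fun x => by ext <;> simp only <;> ring, fun x => by ext <;> simp only <;> ring⟩

/-- Second map. -/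
def l3_g2 (c : ℤ) : V ≃ V :=
  ⟨fun x => (x.2 - c, -x.1 - x.2 + 2 * c), fun x => (-x.1 - x.2 + c, x.1 + c),
    fun x => by ext <;> simp only <;> ring, fun x => by ext <;> simp only <;> ring⟩

/-- Third map. -/
def l3_g3 (c : ℤ) : V ≃ V :=
  ⟨fun x => (x.1 + x.2 - c, -x.1 + 2 * c), fun x => (-x.2 + 2 * c, x.1 + x.2 - c),
    fun x => by ext <;> simp only <;> ring, fun x => by ext <;> simp only <;> ring⟩

theorem l3_s1 (c : ℤ) : IsSym (l3_g1 c) := fun x y => by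
  simp only [adj_iff, l3_g1, Equiv.coe_fn_mk]; omega

theorem l3_s2 (c : ℤ) : IsSym (l3_g2 c) := fun x y => by
  simp only [adj_iff, l3_g2, Equiv.coe_fn_mk]; omega

theorem l3_s3 (c : ℤ) : IsSym (l3_g3 c) := fun x y => by
  simp only [adj_iff, l3_g3, Equiv.coe_fn_mk]; omega

theorem l3_c1 (l w : ℕ) : (∀ v ∈ dS w, l3_g1 (21 * (2 * (w : ℤ) + 1)) v ∈ hS w) ∧
    (∀ v ∈ hex 0 l, l3_g1 (21 * (2 * (w : ℤ) + 1)) v ∈ hex (gate (21 * (2 * w + 1))) l) ∧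
    ∀ v ∈ dS w, v ∈ dB w ∩ {v | 24 * (2 * (w : ℤ) + 1) < v.1} →
      (l3_g1 (21 * (2 * (w : ℤ) + 1)) v).2 = 0 ∧
        3 * (2 * (w : ℤ) + 1) < (l3_g1 (21 * (2 * (w : ℤ) + 1)) v).1 := by
  simp only [l3_g1, Equiv.coe_fn_mk, dS, dB, hS, gate, mem_inter_iff, mem_ofPred_eq, mem_hex,
    Prod.fst_zero, Prod.snd_zero]
  refine ⟨fun v hv => ?_, fun v hv => ?_, fun v hv hv' => ?_⟩ <;> omega

theorem l3_c2 (l w : ℕ) : (∀ v ∈ dS w, l3_g2 (21 * (2 * (w : ℤ) + 1)) v ∈ hS w) ∧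
    (∀ v ∈ hex 0 l, l3_g2 (21 * (2 * (w : ℤ) + 1)) v ∈ hex (gate (21 * (2 * w + 1))) l) ∧
    ∀ v ∈ dS w, v ∈ dB w ∩ {v | 24 * (2 * (w : ℤ) + 1) < v.2} →
      (l3_g2 (21 * (2 * (w : ℤ) + 1)) v).2 = 0 ∧
        3 * (2 * (w : ℤ) + 1) < (l3_g2 (21 * (2 * (w : ℤ) + 1)) v).1 := by
  simp only [l3_g2, Equiv.coe_fn_mk, dS, dB, hS, gate, mem_inter_iff, mem_ofPred_eq, mem_hex,
    Prod.fst_zero, Prod.snd_zero]
  refine ⟨fun v hv => ?_, fun v hv => ?_, fun v hv hv' => ?_⟩ <;> omega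

theorem l3_c3 (l w : ℕ) : (∀ v ∈ dS w ∩ {v | v.1 ≤ 18 * (2 * (w : ℤ) + 1)},
      l3_g3 (9 * (2 * (w : ℤ) + 1)) v ∈ hS w) ∧
    (∀ v ∈ hex 0 l, l3_g3 (9 * (2 * (w : ℤ) + 1)) v ∈ hex (gate (9 * (2 * w + 1))) l) ∧
    ∀ v ∈ dS w ∩ {v | v.1 ≤ 18 * (2 * (w : ℤ) + 1)}, v ∈ {v : V | v.1 = 18 * (2 * (w : ℤ) + 1)} →
      (l3_g3 (9 * (2 * (w : ℤ) + 1)) v).2 = 0 ∧
        3 * (2 * (w : ℤ) + 1) < (l3_g3 (9 * (2 * (w : ℤ) + 1)) v).1 := by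
  simp only [l3_g3, Equiv.coe_fn_mk, dS, dB, hS, gate, mem_inter_iff, mem_ofPred_eq, mem_hex,
    Prod.fst_zero, Prod.snd_zero]
  refine ⟨fun v hv => ?_, fun v hv => ?_, fun v hv hv' => ?_⟩ <;> omega

theorem l3 (h : Pick) : L3 := by
  obtain ⟨f, hf, h⟩ := h 3
  refine ⟨f, hf, fun p hp => ?_⟩
  obtain ⟨η, hη, h⟩ := h p hp
  refine ⟨η, hη, fun Ω e P R H l w hl hR hP => ?_⟩
  obtain ⟨i, -, hi⟩ := h Ω e P R H (Fin 3) Finset.univ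
    ![dS w, dS w, dS w ∩ {v | v.1 ≤ 18 * (2 * (w : ℤ) + 1)}] (fun _ => hex 0 l)
    ![dB w ∩ {v | 24 * (2 * (w : ℤ) + 1) < v.1}, dB w ∩ {v | 24 * (2 * (w : ℤ) + 1) < v.2},
      {v | v.1 = 18 * (2 * (w : ℤ) + 1)}] _ (by simp) (by
      rintro ω ⟨a, ha, b, hb, h1, h2⟩
      simp only [Finset.mem_univ, iUnion_true, mem_iUnion]
      by_cases c1 : 24 * (2 * (w : ℤ) + 1) < b.1
      · exact ⟨0, a, ha, b, ⟨hb, c1⟩, h1, h2⟩
      by_cases c2 : 24 * (2 * (w : ℤ) + 1) < b.2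
      · exact ⟨1, a, ha, b, ⟨hb, c2⟩, h1, h2⟩
      have c3 : a.1 ≤ 18 * (2 * (w : ℤ) + 1) := by
        rw [mem_hex0] at ha
        omega
      obtain ⟨c, d1, -, d2, -⟩ := cn_first (fun v => v.1) (fun x y k => by
        rw [adj_iff] at k; omega) h2 h1 c3 (by simp only [dB, mem_ofPred_eq] at hb; omega)
      exact ⟨2, a, ha, c, d1, ⟨h1, c3⟩, d2⟩) hP
  fin_cases i
  · exact ⟨_, Or.inl rfl, l3_aux H hR hi subset_rfl _ (l3_s1 _) (l3_c1 l w).1 (l3_c1 l w).2.1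
      (l3_c1 l w).2.2⟩
  · exact ⟨_, Or.inl rfl, l3_aux H hR hi subset_rfl _ (l3_s2 _) (l3_c2 l w).1 (l3_c2 l w).2.1
      (l3_c2 l w).2.2⟩
  · exact ⟨_, Or.inr rfl, l3_aux H hR hi inter_subset_left _ (l3_s3 _) (l3_c3 l w).1
      (l3_c3 l w).2.1 (l3_c3 l w).2.2⟩

end Vale.Agent.P153.RSW
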