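import Vale.Agent.P153.RSW.Stm

/-! A path avoiding the gate hits a leg; closing the barrier. -/

open Set Filter Topology

namespace Vale.Agent.P153.RSW

theorem l4_nb {z v : V} {n : ℕ} (h : v ∈ hex z (n + 1)) :
    v ∈ hex z n ∨ ∃ u, Adj u v ∧ u ∈ hex z n := by
  by_contra hc
  rw [not_or, not_exists] at hc
  have h0 := hc.1
  have h1 := hc.2 (v.1 - 1, v.2)
  have h2 := hc.2 (v.1 + 1, v.2)
  have h3 := hc.2 (v.1, v.2 - 1)
  have h4 := hc.2 (v.1, v.2 + 1)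
  have h5 := hc.2 (v.1 + 1, v.2 - 1)
  have h6 := hc.2 (v.1 - 1, v.2 + 1)
  rw [and_iff_right (by rw [adj_iff]; omega), mem_hex] at h1 h2 h3 h4 h5 h6
  rw [mem_hex] at h h0
  simp only at h1 h2 h3 h4 h5 h6
  omega

theorem l4_join (z : V) (n : ℕ) : ∀ v ∈ hex z n, Conn all (hex z n) z v := by
  induction n with
  | zero =>
    intro v hv
    obtain rfl : v = z := by
      rw [mem_hex] at hv
      ext <;> omega
    exact cn_refl
  | succ n ih =>
    intro v hv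
    have h0 : hex z n ⊆ hex z (n + 1) := fun u hu => Nat.le_succ_of_le hu
    rcases l4_nb hv with h | ⟨u, h1, h2⟩
    · exact cn_mono (fun _ _ k => k) h0 (ih v h)
    · exact cn_trans (cn_mono (fun _ _ k => k) h0 (ih u h2)) (cn_step h1 trivial (h0 h2) hv)

theorem l4_wide {Ω : Type} {e : Ω → V → V → Prop} {ω : Ω} {w : ℕ} {x y : V} (hx : x.2 = 0)
    (hy : y.2 = 0) (h : x.1 + 2 * (2 * (w : ℤ) + 1) ≤ y.1) (h1 : x ∈ hS w)
    (h2 : Conn (e ω) (hS w) x y) : ω ∈ Wide e w := by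
  obtain ⟨i, _⟩ := x
  obtain ⟨j, _⟩ := y
  obtain rfl := hx
  obtain rfl := hy
  exact ⟨i, j, h, h1, h2⟩

theorem l4_hex {k w N : ℕ} (hk : k = 21 * (2 * w + 1) ∨ k = 9 * (2 * w + 1))
    (hN : N < 18 * (2 * w + 1)) : hex (gate k) N ⊆ hS w := fun v hv => by
  simp only [hS, gate, mem_inter_iff, mem_ofPred_eq, mem_hex, Prod.fst_zero, Prod.snd_zero] at hv ⊢
  omega

theorem l4 (h : PLA) : L4 := by
  rintro Ω e k l w he hk hl ω ⟨⟨⟨a, ha, b, hb, a1, a2⟩, x, hx, r, hr, x1, x2⟩,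
    x', hx', r', hr', y1, y2⟩
  have b1 : b ∉ hex 0 (129 * (2 * w + 1)) := by
    simp only [triB, mem_ofPred_eq, mem_hex0] at hb ⊢
    omega
  have a3 : a ∈ hex 0 (129 * (2 * w + 1)) := by
    simp only [I0, mem_ofPred_eq, mem_hex0] at ha ⊢
    omega
  obtain ⟨u, v, u1, v1, u2, v2, uv, -, c1, -⟩ :=
    (cn_exit _ a2 a3).resolve_left fun k => b1 k.1
  have s1 : (triS w \ hex (gate k) l) ∩ hex 0 (129 * (2 * w + 1)) ⊆ hS w :=
    fun t ht => ⟨ht.1.1.1, ht.2⟩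
  have s2 : {t | t ∈ hS w ∧ Conn (e ω) (hS w) x t} ∪ {t | t ∈ hS w ∧ Conn (e ω) (hS w) x' t} ∪
      hex (gate k) l ⊆ hS w :=
    union_subset (union_subset (fun _ k => k.1) fun _ k => k.1) (l4_hex hk (by omega))
  have ea : (a.1, (0 : ℤ)) = a := Prod.ext rfl ha.1.symm
  have er : (r.1, (0 : ℤ)) = r := Prod.ext rfl hr.1.symm
  have er' : (r'.1, (0 : ℤ)) = r' := Prod.ext rfl hr'.1.symm
  have n1 := ha.2
  have n2 := hr.2
  have n3 := hr'.2
  obtain ⟨y, z1, z2⟩ := h 0 _ _ ({t | t ∈ (triS w \ hex (gate k) l) ∩ hex 0 (129 * (2 * w + 1)) ∧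
      Conn (e ω) ((triS w \ hex (gate k) l) ∩ hex 0 (129 * (2 * w + 1))) a t} ∪ {v}) r'.1 a.1 r.1 v
    s2 (union_subset (fun _ k => k.1.1.1.1) (singleton_subset_iff.2 v2.1.1)) (by omega) (by omega)
    (by rw [er']; exact Or.inl (Or.inr ⟨cn_mem y2 y1, y2⟩))
    (by
      rw [er, er']
      exact cn_trans (cn_mono (fun _ _ k => k) (subset_union_right.trans subset_union_left)
          (cn_symm all_symm (cn_all (cn_cluster y2))))
        (cn_trans (cn_mono (fun _ _ k => k) subset_union_right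
          (cn_trans (cn_symm all_symm (l4_join _ _ _ hx')) (l4_join _ _ _ hx)))
        (cn_mono (fun _ _ k => k) (subset_union_left.trans subset_union_left)
          (cn_all (cn_cluster x2)))))
    (by rw [ea]; exact Or.inl ⟨⟨a1, a3⟩, cn_refl⟩)
    (by
      rw [ea]
      exact cn_trans (cn_mono (fun _ _ k => k) subset_union_left (cn_all (cn_cluster c1)))
        (cn_step uv trivial (Or.inl ⟨⟨u2, u1⟩, c1⟩) (Or.inr rfl))) v1
  rcases z2 with ⟨z2, z3⟩ | rfl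
  · have z4 := cn_mono (fun _ _ k => k) s1 z3
    rcases z1 with (⟨-, z5⟩ | ⟨-, z5⟩) | z5
    · exact l4_wide ha.1 hr.1 (by omega) (s1 ⟨a1, a3⟩)
        (cn_trans z4 (cn_trans (cn_symm (he ω) z5) x2))
    · exact l4_wide hr'.1 ha.1 (by omega) (cn_mem y2 y1)
        (cn_trans (cn_symm (he ω) y2) (cn_trans z5 (cn_symm (he ω) z4)))
    · exact absurd z5 z2.1.2
  · exact absurd (s2 z1).2 v1

theorem l6 (h : PLD) : L6 := by
  intro Ω e k w he hk
  constructor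
  · rintro ω ⟨⟨x, hx, r, hr, x1, x2⟩, x', hx', r', hr', y1, y2⟩
    obtain rfl : x = x' := by
      rw [mem_hex] at hx hx'
      ext <;> omega
    have n2 := hr.2
    have n3 := hr'.2
    exact l4_wide hr'.1 hr.1 (by omega) (cn_mem y2 y1) (cn_trans (cn_symm (he ω) y2) x2)
  · rintro l n N hl hN ω ⟨⟨⟨x, hx, r, hr, x1, x2⟩, x', hx', r', hr', y1, y2⟩, hc⟩
    obtain ⟨C, c1, c2, c3⟩ := h _ _ _ _ (he ω) hc
    have k1 : ∀ t : V, t.2 = 0 → N < nrm (t - gate k) := fun t ht => by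
      by_contra h0
      have h1 : t ∈ hex (gate k) N := not_lt.1 h0
      simp only [mem_hex, gate] at h1
      omega
    obtain ⟨y, ⟨-, z1⟩, z2⟩ := c3 {t | t ∈ hS w ∧ Conn (e ω) (hS w) x t} x r
      (lt_of_le_of_lt hx hl) (k1 r hr.1) ⟨x1, cn_refl⟩ (cn_all (cn_cluster x2))
    obtain ⟨y', ⟨-, z3⟩, z4⟩ := c3 {t | t ∈ hS w ∧ Conn (e ω) (hS w) x' t} x' r'
      (lt_of_le_of_lt hx' hl) (k1 r' hr'.1) ⟨y1, cn_refl⟩ (cn_all (cn_cluster y2))
    have n2 := hr.2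
    have n3 := hr'.2
    exact l4_wide hr'.1 hr.1 (by omega) (cn_mem y2 y1) (cn_trans (cn_symm (he ω) y2)
      (cn_trans z3 (cn_trans (cn_mono (fun _ _ k => k) (fun t ht => l4_hex hk hN ht.2)
        (c2 y' z4 y z2)) (cn_trans (cn_symm (he ω) z1) x2))))

end Vale.Agent.P153.RSW
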