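import Vale.Agent.P153.RSW.Stm

/-! A path through the gate gives the arm at the next scale. -/

open Set Filter Topology

namespace Vale.Agent.P153.RSW

theorem l5_mem (g : V ≃ V) {S : Set V} {v : V} : v ∈ g '' S ↔ g.symm v ∈ S := by
  rw [Equiv.image_eq_preimage_symm]; rfl

theorem l5_tr (z v : V) : (tr z).symm v = (v.1 - z.1, v.2 - z.2) := by
  simp only [tr, Equiv.addRight_symm, Equiv.coe_addRight, Prod.ext_iff, Prod.fst_add, Prod.snd_add,
    Prod.fst_neg, Prod.snd_neg]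
  omega

theorem l5_mir (z v : V) :
    (mir.trans (tr z)).symm v = (-(v.1 - z.1) - (v.2 - z.2), v.2 - z.2) := by
  rw [Equiv.symm_trans_apply, l5_tr]
  rfl

theorem l5_sub {Ω : Type} (e : Ω → V → V → Prop) {k l w : ℕ} (hk : k ≤ 21 * (2 * w + 1))
    (hl : l ≤ w) : G e w ⊆ Eav e k l w ∪
      Ev e (tr (gate k) '' dS (15 * w + 7)) (tr (gate k) '' hex 0 l)
        (tr (gate k) '' dB (15 * w + 7)) ∪
      Ev e (mir.trans (tr (gate k)) '' dS (15 * w + 7)) (mir.trans (tr (gate k)) '' hex 0 l)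
        (mir.trans (tr (gate k)) '' dB (15 * w + 7)) := by
  rintro ω ⟨a, ha, b, hb, h1, h2⟩
  have key : ω ∈ Eav e k l w ∨ ∃ c ∈ hex (gate k) l, c ∈ triS w ∧ Conn (e ω) (triS w) c b := by
    by_cases h3 : a ∈ hex (gate k) l
    · exact Or.inr ⟨a, h3, h1, h2⟩
    rcases cn_exit (hex (gate k) l)ᶜ h2 h3 with ⟨-, h4⟩ | ⟨u, v, -, h4, -, h5, -, -, -, h6⟩
    · exact Or.inl ⟨a, ha, b, hb, ⟨h1, h3⟩, h4⟩
    · exact Or.inr ⟨v, not_not.1 h4, h5, h6⟩
  rcases key with h | ⟨c, c1, c2, c3⟩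
  · exact Or.inl (Or.inl h)
  have c4 := c1
  simp only [mem_hex, gate] at c4
  rcases hb with hb | hb
  · obtain ⟨d, d1, -, d2, -⟩ := cn_first (fun v => v.1 + v.2 - k) (fun x y h => by
      rw [adj_iff] at h; omega) (h := 630 * (2 * (w : ℤ) + 1)) c3 c2 (by omega) (by omega)
    have d3 : triS w ∩ {v | v.1 + v.2 - k ≤ 630 * (2 * (w : ℤ) + 1)} ⊆
        tr (gate k) '' dS (15 * w + 7) := fun v hv => by
      simp only [l5_mem, l5_tr, triS, dS, gate, mem_inter_iff, mem_ofPred_eq] at hv ⊢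
      omega
    refine Or.inl (Or.inr ⟨c, ?_, d, ?_, d3 ⟨c2, ?_⟩, cn_mono (fun _ _ h => h) d3 d2⟩)
    · simp only [l5_mem, l5_tr, gate, mem_hex0]
      omega
    · simp only [l5_mem, l5_tr, gate, dB, mem_ofPred_eq]
      omega
    · simp only [mem_ofPred_eq]
      omega
  · obtain ⟨d, d1, -, d2, -⟩ := cn_first (fun v => -v.1 - k) (fun x y h => by
      rw [adj_iff] at h; omega) (h := 630 * (2 * (w : ℤ) + 1)) c3 c2 (by omega) (by omega)
    have d3 : triS w ∩ {v | -v.1 - k ≤ 630 * (2 * (w : ℤ) + 1)} ⊆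
        mir.trans (tr (gate k)) '' dS (15 * w + 7) := fun v hv => by
      simp only [l5_mem, l5_mir, triS, dS, gate, mem_inter_iff, mem_ofPred_eq] at hv ⊢
      omega
    refine Or.inr ⟨c, ?_, d, ?_, d3 ⟨c2, ?_⟩, cn_mono (fun _ _ h => h) d3 d2⟩
    · simp only [l5_mem, l5_mir, gate, mem_hex0]
      omega
    · simp only [l5_mem, l5_mir, gate, dB, mem_ofPred_eq]
      omega
    · simp only [mem_ofPred_eq]
      omega

theorem l5 : L5 := by
  intro Ω e P R η k l w H hk hl hR h0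
  have a0 : dS (15 * w + 7) ⊆ hex 0 R := fun v hv => by
    simp only [dS, mem_ofPred_eq, mem_hex0] at hv ⊢
    omega
  have sym : ∀ g : V ≃ V, IsSym g → g '' dS (15 * w + 7) ⊆ hex 0 R →
      P (Ev e (g '' dS (15 * w + 7)) (g '' hex 0 l) (g '' dB (15 * w + 7))) ≤
        P (D e l (15 * w + 7)) + η := fun g hg h => by
    have := H.sym g.symm (isSym_symm hg) _ (g '' hex 0 l) (g '' dB (15 * w + 7)) h
      (by rwa [Equiv.symm_image_image])
    rwa [Equiv.symm_image_image, Equiv.symm_image_image, Equiv.symm_image_image] at this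
  have a1 := sym _ (isSym_tr (gate k)) fun v hv => by
    simp only [l5_mem, l5_tr, dS, gate, mem_ofPred_eq, mem_hex0] at hv ⊢
    omega
  have a2 := sym _ (isSym_trans isSym_mir (isSym_tr (gate k))) fun v hv => by
    simp only [l5_mem, l5_mir, dS, gate, mem_ofPred_eq, mem_hex0] at hv ⊢
    omega
  have a3 := H.mono (l5_sub e hk hl)
  refine le_trans ?_ (sub_le_sub_left a3 1)
  refine le_trans ?_ (H.cofkg (Up.union up_ev up_ev) up_ev)
  rw [pow_two, ← mul_assoc]
  refine mul_le_mul (le_trans ?_ (H.cofkg up_ev up_ev)) (by linarith) (by linarith)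
    (sub_nonneg.2 (H.le_one _))
  exact mul_le_mul_of_nonneg_left (by linarith) (sub_nonneg.2 (H.le_one _))

end Vale.Agent.P153.RSW
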