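import Vale.Agent.P153.RSW.Stm

/-! Abstract RSW theory: the double induction. -/

open Set Filter Topology

namespace Vale.Agent.P153.RSW

/-- the square root map -/
noncomputable def mainR (x : ℝ) : ℝ := 1 - Real.sqrt (1 - x)

theorem main_gR : Gd mainR := gd_sqrt

/-- the level reached after one step -/
noncomputable def mainT (x : ℝ) : ℝ := mainR (mainR x) ^ (1 + 1)

theorem main_gT : Gd mainT := (main_gR.comp main_gR).pow 1

theorem main_sc (k : ℕ) : sc (k + 1) = 15 * sc k + 7 := rfl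

theorem main_mono {j k : ℕ} (h : j ≤ k) : sc j ≤ sc k := by
  induction k, h using Nat.le_induction with
  | base => exact le_rfl
  | succ m _ ih => rw [main_sc]; omega

variable {Ω : Type} {e : Ω → V → V → Prop} {P : Set Ω → ℝ} {R : ℕ} {η : ℝ}

theorem main_step (h5 : L5) (H : Hyp e P R η) {x : ℝ} (hx : x ∈ Ioo (0 : ℝ) 1)
    (hη : η ≤ mainR (mainR x) * (1 - mainR (mainR x))) {k l w : ℕ} (hk : k ≤ 21 * (2 * w + 1))
    (hl : l ≤ w) (hR : 1400 * (2 * w + 1) ≤ R) (hG : x ≤ P (G e w))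
    (hE : P (Eav e k l w) ≤ mainR x) : mainT x ≤ P (D e l (15 * w + 7)) := by
  have hy := main_gR.1 _ (main_gR.1 x hx)
  rw [mainT, one_add_one_eq_two, sq]
  rw [mul_sub, mul_one] at hη
  by_cases hc : P (D e l (15 * w + 7)) + η ≤ 1
  · have h1 := h5 Ω e P R η k l w H hk hl hR hc
    have u0 : 0 < Real.sqrt (1 - x) := Real.sqrt_pos.2 (by linarith [hx.2])
    have u1 : Real.sqrt (1 - x) * Real.sqrt (1 - x) = 1 - x :=
      Real.mul_self_sqrt (by linarith [hx.2])
    have h2 : Real.sqrt (1 - x) ≤ 1 - P (Eav e k l w) := by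
      rw [mainR] at hE
      linarith
    have h3 : (1 - P (D e l (15 * w + 7)) - η) ^ 2 ≤ Real.sqrt (1 - x) := by
      refine le_of_mul_le_mul_left ?_ u0
      have := mul_le_mul_of_nonneg_right h2 (sq_nonneg (1 - P (D e l (15 * w + 7)) - η))
      linarith
    have h4 := Real.le_sqrt_of_sq_le h3
    have h6 : mainR (mainR x) = 1 - Real.sqrt (Real.sqrt (1 - x)) := by
      simp only [mainR, sub_sub_cancel]
    linarith
  · linarith [hy.2, not_le.1 hc]

theorem main_empty (w : ℕ) : Eav e 0 w w = ∅ := by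
  refine eq_empty_of_forall_notMem ?_
  rintro ω ⟨a, ha, b, -, h1, -⟩
  refine h1.2 ?_
  simp only [I0, mem_ofPred_eq] at ha
  simp only [mem_hex, gate]
  omega

theorem main_arm {l w a b : ℕ} (hl : l ≤ a) (hab : a ≤ b) (hb : b ≤ 42 * (2 * w + 1)) :
    D e l w ⊆ Ar e a b := by
  rintro ω ⟨x, hx, y, hy, h1, h2⟩
  have hx' := mem_hex0.1 hx
  obtain ⟨c, h3, -, h4, -⟩ := cn_first (fun v => (nrm v : ℤ)) (h := b)
    (fun u v huv => by
      rw [adj_iff] at huv
      simp only [nrm]
      omega) h2 h1 (by simp only [nrm]; omega) (by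
      simp only [dB, mem_ofPred_eq] at hy
      simp only [nrm]
      omega)
  refine ⟨x, mem_hex0.2 (by omega), c, by exact_mod_cast h3, mem_hex0.2 (by omega),
    cn_mono (fun _ _ k => k) (fun v hv => ?_) h4⟩
  have := hv.2
  simp only [mem_ofPred_eq] at this
  simp only [hex, mem_ofPred_eq, sub_zero]
  exact_mod_cast this

theorem main (h2 : L2) (h3 : L3) (h4 : L4) (h5 : L5) (h6 : L6) (hc : L1c) : Main := by
  obtain ⟨f2, g2, h2⟩ := h2 1318
  obtain ⟨f3, g3, h3⟩ := h3
  obtain ⟨fc, gc, hc⟩ := hc 1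
  have gp1 : Gd fun p => f2 (mainT p) := main_gT.comp g2
  have ga1 : Gd fun p => f3 (mainT (f2 (mainT p))) := (gp1.comp main_gT).comp g3
  have gβ : Gd fun p => mainR (f2 (mainT p)) * mainR p *
      (f3 (mainT (f2 (mainT p))) * f3 (mainT (f2 (mainT p)))) :=
    ((gp1.comp main_gR).mul main_gR).mul (ga1.mul ga1)
  have ga : Gd fun p => f3 (mainT p) := main_gT.comp g3
  refine ⟨_, (ga.mul ga).mul (gβ.comp gc), fun p hp => ?_⟩
  have m0 := main_gT.1 p hp
  have m1 := gp1.1 p hp
  have m2 := main_gT.1 _ m1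
  have m3 := ga1.1 p hp
  have m4 := gβ.1 p hp
  have m5 := ga.1 p hp
  have m6 := gc.1 _ m4
  have r0 := main_gR.1 p hp
  have r1 := main_gR.1 _ m1
  have y0 := main_gR.1 _ r0
  have y1 := main_gR.1 _ r1
  obtain ⟨η2, e2, h2⟩ := h2 _ m0
  obtain ⟨η3, e3, h3'⟩ := h3 _ m2
  obtain ⟨η4, e4, h3⟩ := h3 _ m0
  obtain ⟨η5, e5, hc⟩ := hc _ m4
  simp only at m1 m3 m4 m5 m6 ⊢
  set p1 := f2 (mainT p) with hp1
  set a1 := f3 (mainT p1) with ha1
  set β := mainR p1 * mainR p * (a1 * a1) with hβ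
  refine ⟨min (min (min η2 η3) (min η4 η5)) (min (mainR (mainR p) * (1 - mainR (mainR p)))
    (mainR (mainR p1) * (1 - mainR (mainR p1)))), lt_min (lt_min (lt_min e2 e3) (lt_min e4 e5))
    (lt_min (mul_pos y0.1 (sub_pos.2 y0.2)) (mul_pos y1.1 (sub_pos.2 y1.2))),
    fun Ω e P R H n hR hG => ?_⟩
  have H2 := h2 Ω e P R (H.weak ((min_le_left _ _).trans ((min_le_left _ _).trans
    (min_le_left _ _))))
  have H3' := h3' Ω e P R (H.weak ((min_le_left _ _).trans ((min_le_left _ _).trans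
    (min_le_right _ _))))
  have H3 := h3 Ω e P R (H.weak ((min_le_left _ _).trans ((min_le_right _ _).trans
    (min_le_left _ _))))
  have Hc := hc Ω e P R (H.weak ((min_le_left _ _).trans ((min_le_right _ _).trans
    (min_le_right _ _))))
  have n0 := (min_le_right (min (min η2 η3) (min η4 η5)) _).trans (min_le_left
    (mainR (mainR p) * (1 - mainR (mainR p))) (mainR (mainR p1) * (1 - mainR (mainR p1))))
  have n1 := (min_le_right (min (min η2 η3) (min η4 η5)) _).trans (min_le_right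
    (mainR (mainR p) * (1 - mainR (mainR p))) (mainR (mainR p1) * (1 - mainR (mainR p1))))
  clear h2 h3 h3' hc
  rw [main_sc] at hR
  have hRk : ∀ k ≤ n, 1400 * (2 * sc k + 1) ≤ R := fun k hk => by
    have := main_mono hk
    omega
  have hE : ∀ k l, l ≤ sc k → k ≤ n → P (Wide e (sc k)) < β → mainT p1 ≤ P (D e l (sc k)) →
      ∃ j, j ≤ 21 * (2 * sc k + 1) ∧ P (Eav e j l (sc k)) ≤ mainR p1 * mainR p := by
    intro k l hl hk hW hD
    obtain ⟨j, hj, b1, b2⟩ := H3' l (sc k) hl (hRk k hk) hD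
    refine ⟨j, by omega, le_of_mul_le_mul_right ?_ (mul_pos m3.1 m3.1)⟩
    have c1 := H.fkg (Eav e j l (sc k)) (Al e j l (sc k)) up_ev up_ev
    have c2 := H.fkg (Eav e j l (sc k) ∩ Al e j l (sc k)) (Al' e j l (sc k))
      (Up.inter up_ev up_ev) up_ev
    have c3 := H.mono (h4 Ω e j l (sc k) H.symm hj hl)
    have c4 := H.nonneg (Eav e j l (sc k))
    calc P (Eav e j l (sc k)) * (a1 * a1) = P (Eav e j l (sc k)) * a1 * a1 := by ring
      _ ≤ P (Eav e j l (sc k) ∩ Al e j l (sc k)) * P (Al' e j l (sc k)) :=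
        mul_le_mul ((mul_le_mul_of_nonneg_left b1 c4).trans c1) b2 m3.1.le (H.nonneg _)
      _ ≤ β := by linarith
  have hF : ∀ j k, j ≤ k + 1 → k < n → mainT p ≤ P (D e (sc j) (sc (n + 1))) →
      p1 ≤ P (G e (sc k)) := by
    intro j k hj hk hD
    have c1 := main_mono hj
    have c2 := main_mono (show k + 1 ≤ n from hk)
    have c3 := hRk k hk.le
    rw [main_sc] at c1 c2
    refine H2 (sc k) (15 * (2 * sc k + 1)) (1317 * (2 * sc k + 1) + 1) (by omega) (by omega)
      (by omega) c3 (hD.trans (H.mono (main_arm (by omega) (by omega) ?_)))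
    rw [main_sc]
    omega
  have hC : ∀ d j, j + d = n → (∀ k, j < k → k ≤ n → P (Wide e (sc k)) < β) →
      mainT p ≤ P (D e (sc j) (sc (n + 1))) := by
    intro d
    induction d with
    | zero =>
      intro j hj _
      obtain rfl : j = n := by omega
      exact main_step h5 H hp n0 (k := 0) (Nat.zero_le _) le_rfl (hRk j le_rfl) hG
        (by rw [main_empty, H.empty]; exact r0.1.le)
    | succ d ih =>
      intro j hj hb
      have c0 := ih (j + 1) (by omega) fun k hk hk' => hb k (by omega) hk'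
      have c1 : ∀ k, j ≤ k → k < n → mainT p1 ≤ P (D e (sc j) (sc (k + 1))) := by
        intro k hk
        induction k, hk using Nat.le_induction with
        | base =>
          intro hk'
          exact main_step h5 H m1 n1 (k := 0) (Nat.zero_le _) le_rfl (hRk j hk'.le)
            (hF (j + 1) j le_rfl hk' c0) (by rw [main_empty, H.empty]; exact r1.1.le)
        | succ k hk ihk =>
          intro hk'
          have c2 := main_mono (show j ≤ k + 1 by omega)
          obtain ⟨i, hi, c3⟩ := hE (k + 1) (sc j) c2 hk'.le (hb _ (by omega) hk'.le)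
            (ihk (by omega))
          exact main_step h5 H m1 n1 hi c2 (hRk _ hk'.le) (hF (j + 1) (k + 1) (by omega) hk' c0)
            (c3.trans (mul_le_of_le_one_right r1.1.le r0.2.le))
      have c2 := main_mono (show j ≤ n by omega)
      obtain ⟨m, rfl⟩ : ∃ m, n = m + 1 := ⟨j + d, by omega⟩
      obtain ⟨i, hi, c3⟩ := hE (m + 1) (sc j) c2 le_rfl (hb _ (by omega) le_rfl)
        (c1 m (by omega) (by omega))
      exact main_step h5 H hp n0 hi c2 (hRk _ le_rfl) hG
        (c3.trans (mul_le_of_le_one_left r0.1.le r1.2.le))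
  have hR1 : 1400 * (2 * sc (n + 1) + 1) ≤ R := by
    rw [main_sc]
    omega
  by_cases hg : ∃ k ≤ n, β ≤ P (Wide e (sc k))
  · classical
    obtain ⟨k0, k1, k2⟩ := hg
    set σ := Nat.findGreatest (fun k => β ≤ P (Wide e (sc k))) n with hσ
    have s1 : σ ≤ n := Nat.findGreatest_le n
    have s2 : β ≤ P (Wide e (sc σ)) :=
      Nat.findGreatest_spec (P := fun k => β ≤ P (Wide e (sc k))) k1 k2
    have s3 := hC (n - σ) σ (by omega) fun k hk hk' =>
      not_le.1 (Nat.findGreatest_is_greatest (P := fun k => β ≤ P (Wide e (sc k))) hk hk')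
    have s4 := main_mono s1
    obtain ⟨j, hj, b1, b2⟩ := H3 (sc σ) (sc (n + 1)) (main_mono (by omega)) hR1 s3
    have s6 : nrm (gate j) = 2 * j := by
      simp only [nrm, gate]
      omega
    have s7 : j ≤ 21 * (2 * (15 * sc n + 7) + 1) := by
      rw [main_sc] at hj
      omega
    have s8 : nrm (gate j) + 2 * (2 * sc σ + 1 + 129 * (2 * sc σ + 1)) ≤ R := by
      rw [s6]
      clear_value σ
      generalize sc σ = u at s4 ⊢
      generalize sc n = v at s4 s7 hR
      linarith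
    have s9 : (3 * 1 + 800) * (2 * sc σ + 1) ≤ R := by
      clear_value σ
      generalize sc σ = u at s4 ⊢
      generalize sc n = v at s4 hR
      linarith
    have s10 : 1 ≤ 2 * sc σ + 1 := Nat.le_add_left _ _
    have s5 := Hc (sc σ) (2 * sc σ + 1) (gate j) s10 (one_mul _).ge s9 s8
    replace s5 := s5 s2
    have c3 := H.mono ((h6 Ω e j (sc (n + 1)) H.symm hj).2 (sc σ) (2 * sc σ + 1)
      (2 * (2 * sc σ + 1 + 129 * (2 * sc σ + 1))) (by omega) (by rw [main_sc]; omega))
    have c1 := H.fkg (Al e j (sc σ) (sc (n + 1))) (Al' e j (sc σ) (sc (n + 1))) up_ev up_ev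
    have c2 := H.fkg (Al e j (sc σ) (sc (n + 1)) ∩ Al' e j (sc σ) (sc (n + 1))) _
      (Up.inter up_ev up_ev) (up_circ (e := e) (gate j) (2 * sc σ + 1)
        (2 * (2 * sc σ + 1 + 129 * (2 * sc σ + 1))))
    exact (mul_le_mul ((mul_le_mul b1 b2 m5.1.le (H.nonneg _)).trans c1) s5 m6.1.le
      (H.nonneg _)).trans (c2.trans c3)
  · have s3 := hC n 0 (by omega) fun k _ hk' => not_le.1 fun c => hg ⟨k, hk', c⟩
    obtain ⟨j, hj, b1, b2⟩ := H3 (sc 0) (sc (n + 1)) (main_mono (by omega)) hR1 s3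
    have c3 := H.mono (h6 Ω e j (sc (n + 1)) H.symm hj).1
    have c1 := H.fkg (Al e j 0 (sc (n + 1))) (Al' e j 0 (sc (n + 1))) up_ev up_ev
    exact (mul_le_of_le_one_right (mul_pos m5.1 m5.1).le m6.2.le).trans
      (((mul_le_mul b1 b2 m5.1.le (H.nonneg _)).trans c1).trans c3)

end Vale.Agent.P153.RSW
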