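import Vale.Agent.P153.RSW.Stm

/-! Abstract RSW theory: the outputs. -/

open Set Filter Topology

namespace Vale.Agent.P153.RSW

theorem out_scale (M : ℕ) (hM : 1302 < M) :
    ∃ n, 1302 * (2 * sc n + 1) < M ∧ M ≤ 19530 * (2 * sc n + 1) := by
  have hge : ∀ n, n ≤ sc (n + 1) := fun n => by
    induction n with
    | zero => exact Nat.zero_le _
    | succ n ih => show n + 1 ≤ 15 * sc (n + 1) + 7; omega
  have hex : ∃ n, M ≤ 19530 * (2 * sc n + 1) := ⟨M + 1, by have := hge M; omega⟩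
  classical
  refine ⟨Nat.find hex, ?_, Nat.find_spec hex⟩
  rcases h : Nat.find hex with _ | k
  · show 1302 * (2 * 0 + 1) < M
    omega
  · have := Nat.find_min hex (m := k) (by omega)
    show 1302 * (2 * (15 * sc k + 7) + 1) < M
    omega

theorem out_arm {Ω : Type} (e : Ω → V → V → Prop) {n N : ℕ} (h : n ≤ N) :
    {ω | Arm (e ω) 0 n N} ⊆ Ar e n N := by
  rintro ω ⟨a, b, h1, h2, h3⟩
  refine ⟨a, h1.le, b, by simpa using h2, h1.le.trans h, cn_mono (fun _ _ k => k) ?_ h3⟩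
  exact fun v hv => hv.2

theorem out_circ {E : V → V → Prop} {z : V} {n N N' : ℕ} (h : N ≤ N') (hc : Circ E z n N) :
    Circ E z n N' := by
  obtain ⟨m, w, h0, h1, h2, h3⟩ := hc
  exact ⟨m, w, h0, h1, fun t ht => ⟨(h2 t ht).1, (h2 t ht).2.trans h⟩, h3⟩

theorem out_mem_tr {x v : V} {m : ℕ} (h : v ∈ tr (x - ((m : ℤ), (m : ℤ))) '' box (2 * m) (2 * m)) :
    v ∈ rh x m := by
  obtain ⟨u, ⟨h1, h2, h3, h4⟩, rfl⟩ := h
  simp only [rh, tr, mem_ofPred_eq, Equiv.coe_addRight, Prod.fst_sub, Prod.snd_sub, Prod.fst_add,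
    Prod.snd_add]
  omega

theorem out_mem_sw {x v : V} {m : ℕ}
    (h : v ∈ swp.trans (tr (x - ((m : ℤ), (m : ℤ)))) '' box (2 * m) (2 * m)) : v ∈ rh x m := by
  obtain ⟨u, ⟨h1, h2, h3, h4⟩, rfl⟩ := h
  simp only [rh, tr, swp, mem_ofPred_eq, Equiv.trans_apply, Equiv.prodComm_apply,
    Equiv.coe_addRight, Prod.fst_sub, Prod.snd_sub, Prod.fst_add, Prod.snd_add, Prod.fst_swap,
    Prod.snd_swap]
  omega

theorem out_rh {x : V} {m R : ℕ} (h : nrm x + 2 * m ≤ R) : rh x m ⊆ hex 0 R := by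
  intro v hv
  simp only [rh, mem_ofPred_eq, Prod.fst_sub, Prod.snd_sub] at hv
  simp only [nrm] at h
  rw [mem_hex0]
  omega

theorem out_h {Ω : Type} (e : Ω → V → V → Prop) (x : V) (m : ℕ) :
    LX e (tr (x - ((m : ℤ), (m : ℤ)))) (2 * m) (2 * m) ⊆ {ω | HCr (e ω) x m} := by
  rintro ω ⟨_, ⟨a, ha, rfl⟩, _, ⟨b, hb, rfl⟩, h1, h2⟩
  refine ⟨_, _, ?_, ?_, out_mem_tr h1, cn_mono (fun _ _ k => k) (fun _ => out_mem_tr) h2⟩
  · simp only [tr, mem_ofPred_eq, Equiv.coe_addRight, Prod.fst_sub, Prod.fst_add] at ha ⊢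
    omega
  · simp only [tr, mem_ofPred_eq, Equiv.coe_addRight, Prod.fst_sub, Prod.fst_add] at hb ⊢
    omega

theorem out_v {Ω : Type} (e : Ω → V → V → Prop) (x : V) (m : ℕ) :
    LX e (swp.trans (tr (x - ((m : ℤ), (m : ℤ))))) (2 * m) (2 * m) ⊆ {ω | VCr (e ω) x m} := by
  rintro ω ⟨_, ⟨a, ha, rfl⟩, _, ⟨b, hb, rfl⟩, h1, h2⟩
  refine ⟨_, _, ?_, ?_, out_mem_sw h1, cn_mono (fun _ _ k => k) (fun _ => out_mem_sw) h2⟩
  · simp only [tr, swp, mem_ofPred_eq, Equiv.trans_apply, Equiv.prodComm_apply,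
      Equiv.coe_addRight, Prod.snd_sub, Prod.snd_add, Prod.snd_swap] at ha ⊢
    omega
  · simp only [tr, swp, mem_ofPred_eq, Equiv.trans_apply, Equiv.prodComm_apply,
      Equiv.coe_addRight, Prod.snd_sub, Prod.snd_add, Prod.snd_swap] at hb ⊢
    omega

theorem armW (h : L2) (h2 : Main) : ArmW := by
  obtain ⟨f, hf, H⟩ := h 24413
  obtain ⟨g, hg, H2⟩ := h2
  refine ⟨_, hf.comp hg, fun p hp => ?_⟩
  obtain ⟨η, hη, H⟩ := H p hp
  obtain ⟨η', hη', H2⟩ := H2 (f p) (hf.1 p hp)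
  refine ⟨min η η', lt_min hη hη', fun Ω e P R hy N h1 h2 h3 => ?_⟩
  obtain ⟨n, n1, n2⟩ := out_scale (4 * N) (by omega)
  have e1 : sc (n + 1) = 15 * sc n + 7 := rfl
  have a1 := H Ω e P R (hy.weak (min_le_left _ _)) (sc n) N (5 * N) (by linarith) (by linarith)
    (by omega) (by omega) (h3.trans (hy.mono (out_arm e (by omega))))
  exact ⟨sc (n + 1), by omega, by omega,
    H2 Ω e P R (hy.weak (min_le_right _ _)) n (by omega) a1⟩

theorem rswc (h : ArmW) (h2 : L1c) : RSWc := by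
  obtain ⟨f, hf, H⟩ := h
  obtain ⟨g, hg, H2⟩ := h2 326
  refine ⟨_, hf.comp hg, fun p hp => ?_⟩
  obtain ⟨η, hη, H⟩ := H p hp
  obtain ⟨η', hη', H2⟩ := H2 (f p) (hf.1 p hp)
  refine ⟨min η η', lt_min hη hη', fun Ω e P R hy N h1 h2 h3 z hz => ?_⟩
  obtain ⟨w, w1, w2, w3⟩ := H Ω e P R (hy.weak (min_le_left _ _)) N h1 h2 h3
  exact (H2 Ω e P R (hy.weak (min_le_right _ _)) w N z (by omega) w1 (by linarith) (by linarith)
    w3).trans (hy.mono fun ω hω => out_circ (by omega) hω)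

theorem rswx (h : ArmW) (h2 : L1) : RSWx := by
  intro K
  obtain ⟨f, hf, H⟩ := h
  obtain ⟨g, hg, H2⟩ := h2 (326 * K)
  refine ⟨_, hf.comp hg, fun p hp => ?_⟩
  obtain ⟨η, hη, H⟩ := H p hp
  obtain ⟨η', hη', H2⟩ := H2 (f p) (hf.1 p hp)
  refine ⟨min η η', lt_min hη hη', fun Ω e P R hy N h1 h2 h3 => ?_⟩
  obtain ⟨w, w1, w2, w3⟩ := H Ω e P R (hy.weak (min_le_left _ _)) N h1
    (le_trans (Nat.mul_le_mul_right _ (Nat.le_add_right _ _)) h2) h3
  have k1 : K * N ≤ 326 * K * (2 * w + 1) := by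
    calc K * N ≤ K * (326 * (2 * w + 1)) := Nat.mul_le_mul_left _ w1
      _ = 326 * K * (2 * w + 1) := by ring
  have k2 : (326 * K + 400) * (2 * w + 1) ≤ R := by
    calc (326 * K + 400) * (2 * w + 1) ≤ ((100 + 20 * K) * 21) * (2 * w + 1) :=
          Nat.mul_le_mul_right _ (by omega)
      _ = (100 + 20 * K) * (21 * (2 * w + 1)) := by ring
      _ ≤ (100 + 20 * K) * N := Nat.mul_le_mul_left _ w2
      _ ≤ R := h2
  have key : ∀ (b L : ℕ) (s : V ≃ V), 7 * N ≤ b → L ≤ K * N → IsSym s → s '' box b L ⊆ hex 0 R →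
      g (f p) ≤ P (LX e s b L) := fun b L s b1 b2 b3 b4 =>
    H2 Ω e P R (hy.weak (min_le_right _ _)) w L b (b2.trans k1) (by omega) k2 w3 s b3 b4
  refine ⟨key, fun m x m1 m2 m3 => ⟨?_, ?_⟩⟩
  · exact (key _ _ _ m1 m2 (isSym_tr _) fun _ hv => out_rh m3 (out_mem_tr hv)).trans
      (hy.mono (out_h e x m))
  · exact (key _ _ _ m1 m2 (isSym_trans isSym_swp (isSym_tr _))
      fun _ hv => out_rh m3 (out_mem_sw hv)).trans (hy.mono (out_v e x m))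

end Vale.Agent.P153.RSW
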