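import Vale.Agent.P153.RSW.Stm

/-! Two consecutive sides of the triangle meet. -/

open Set

namespace Vale.Agent.P153.RSW

theorem plc_line {S : Set V} (f : ℤ → V) (hf : ∀ j, Adj (f j) (f (j + 1))) {j0 j1 : ℤ}
    (h : j0 ≤ j1) (hS : ∀ j, j0 ≤ j → j ≤ j1 → f j ∈ S) : Conn all S (f j0) (f j1) := by
  induction j1, h using Int.leInduction with
  | base => exact cn_refl
  | succ j hj ih =>
    exact cn_trans (ih fun k h1 h2 => hS k h1 (by omega))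
      (cn_step (hf j) trivial (hS j hj (by omega)) (hS _ (by omega) le_rfl))

theorem plc (h : PLA) : PLC := by
  intro a b S T x y x' y' ha hab hS hT hx hc x1 y1 hx' hc' x2 y2
  have mS : ∀ v ∈ S, -(b : ℤ) ≤ v.2 ∧ v.2 ≤ -a := fun v hv => by
    obtain ⟨u, hu, rfl⟩ := hS hv
    simp only [box, mem_ofPred_eq, side, tr, Equiv.coe_addRight, Prod.snd_add] at hu ⊢
    omega
  have mT : ∀ v ∈ T, (a : ℤ) ≤ v.1 + v.2 ∧ v.1 + v.2 ≤ b ∧ -(b : ℤ) ≤ v.2 := fun v hv => by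
    obtain ⟨_, ⟨u, hu, rfl⟩, rfl⟩ := hT hv
    simp only [box, mem_ofPred_eq, side, tr, r3, Equiv.coe_fn_mk, Equiv.coe_addRight,
      Prod.snd_add, Prod.fst_add] at hu ⊢
    omega
  have a1 : ∀ x y : V, Adj x y → y.1 + y.2 ≤ x.1 + x.2 + 1 := fun x y k => by
    simp only [adj_iff] at k
    omega
  have a2 : ∀ x y : V, Adj x y → y.2 ≤ x.2 + 1 := fun x y k => by
    simp only [adj_iff] at k
    omega
  have b1 := mS x hx
  have b2 := mS y (cn_mem hc hx)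
  obtain ⟨v, v1, v2, v3, -⟩ := cn_first (fun v => v.1 + v.2) a1 (h := b) hc hx (by omega) (by omega)
  obtain ⟨u, u1, u2, -, u4⟩ := cn_last all_symm (fun v => v.1 + v.2) a1 (h := a) v3
    ⟨hx, show x.1 + x.2 ≤ b by omega⟩ (by omega) (by omega)
  obtain ⟨w, w1, w2, w3, -⟩ := cn_first (fun v => v.2) a2 (h := -a) hc' hx' (by omega) (by omega)
  have b3 := mS u u2.1
  have b4 := mS v v2
  have b5 := mT x' hx'
  obtain ⟨S', hS'⟩ : ∃ S' : Set V, S' = {z : V | -(b : ℤ) ≤ z.2 ∧ z.2 ≤ -(a : ℤ) ∧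
    ((z ∈ S ∧ (a : ℤ) ≤ z.1 + z.2 ∧ z.1 + z.2 ≤ b) ∨ z.1 + z.2 = a - 1 ∨ z.1 + z.2 = b + 1)} :=
    ⟨_, rfl⟩
  have d : ∀ s j1 : ℤ, s = a - 1 ∨ s = b + 1 → -(b : ℤ) ≤ j1 → j1 ≤ -a →
      Conn all S' (s - -b, -b) (s - j1, j1) := fun s j1 hs h1 h2 =>
    plc_line (fun j => (s - j, j)) (fun j => by rw [adj_iff]; dsimp only; omega) h1
      fun j k1 k2 => by
      rw [hS']
      exact ⟨k1, k2.trans h2, Or.inr (by simp only; omega)⟩
  have i0 : S ∩ {v | v.1 + v.2 ≤ (b : ℤ)} ∩ {v | (a : ℤ) ≤ v.1 + v.2} ⊆ S' := fun z hz => by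
    rw [hS']
    exact ⟨(mS z hz.1.1).1, (mS z hz.1.1).2, Or.inl ⟨hz.1.1, hz.2, hz.1.2⟩⟩
  have mu : u ∈ S' := i0 ⟨u2, u1.ge⟩
  have c0 := cn_mono (fun _ _ k => k) i0 u4
  have m0 : ((a : ℤ) - 1 - -b, -(b : ℤ)) ∈ S' := by
    rw [hS']
    exact ⟨le_rfl, by simp only; omega, Or.inr (Or.inl (by simp only; omega))⟩
  have m1 : ((b : ℤ) + 1 - -b, -(b : ℤ)) ∈ S' := by
    rw [hS']
    exact ⟨le_rfl, by simp only; omega, Or.inr (Or.inr (by simp only; omega))⟩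
  have c1 := d (a - 1) u.2 (Or.inl rfl) b3.1 b3.2
  have c2 := d (b + 1) v.2 (Or.inr rfl) b4.1 b4.2
  have c3 : Conn all S' ((a : ℤ) - 1 - -b, -(b : ℤ)) ((b : ℤ) + 1 - -b, -(b : ℤ)) :=
    cn_trans c1 (cn_trans
      (cn_step (by rw [adj_iff]; dsimp only; omega) trivial (cn_mem c1 m0) mu)
      (cn_trans c0 (cn_trans (cn_step (by rw [adj_iff]; dsimp only; omega) trivial (cn_mem c0 mu)
        (cn_mem c2 m1)) (cn_symm all_symm c2))))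
  have ex : x' = (x'.1, -(b : ℤ)) := Prod.ext rfl x2
  have ew : w = (w.1, -(a : ℤ)) := Prod.ext rfl w1
  have c4 : Conn all (T ∩ {v | v.2 ≤ -(a : ℤ)} ∪ {z | z.1 = w.1 ∧ -(a : ℤ) < z.2})
      (w.1, -(a : ℤ)) (w.1, 2 * (b : ℤ) + 3) :=
    plc_line (fun j => (w.1, j)) (fun j => by rw [adj_iff]; dsimp only; omega) (by omega)
      fun j k1 _ => by
        rcases k1.eq_or_lt with rfl | k
        · exact Or.inl ⟨ew ▸ w2, le_refl (-(a : ℤ))⟩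
        · exact Or.inr ⟨rfl, k⟩
  obtain ⟨z, z1, z2⟩ := h (-b) (2 * b + 2) S'
    (T ∩ {v | v.2 ≤ -(a : ℤ)} ∪ {z | z.1 = w.1 ∧ -(a : ℤ) < z.2}) _ x'.1 _ (w.1, 2 * (b : ℤ) + 3)
    (fun z hz => by
      rw [hS'] at hz
      obtain ⟨k1, k2, k3⟩ := hz
      refine ⟨k1, mem_hex0.2 ?_⟩
      push_cast
      omega)
    (fun z hz => hz.elim (fun k => (mT z k.1).2.2) fun k => by
      have := k.2
      show -(b : ℤ) ≤ z.2
      omega)
    (by omega) (by omega) m0 c3 (Or.inl ⟨ex ▸ hx', by show -(b : ℤ) ≤ -a; omega⟩)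
    (cn_trans (ex ▸ ew ▸ cn_mono (fun _ _ k => k) subset_union_left w3) c4)
    (by simp only [mem_hex0]; push_cast; omega)
  rw [hS'] at z1
  obtain ⟨k1, k2, k3⟩ := z1
  rcases z2 with z2 | z2
  · have := mT z z2.1
    rcases k3 with k3 | k3
    · exact ⟨z, k3.1, z2.1⟩
    · omega
  · exact absurd z2.2 (not_lt.2 k2)

end Vale.Agent.P153.RSW
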