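import Vale.Agent.P153.RSW.Stm
import Vale.Agent.P153.Planar.Basic

/-! A circuit with odd winding blocks all lattice paths. -/

open Set

namespace Vale.Agent.P153.RSW

open Classical in
theorem PLD_succ (A : ℕ → Prop) (m : ℕ) : Odd ((Finset.range (m + 1)).filter A).card ↔
    (Odd ((Finset.range m).filter A).card ↔ ¬A m) := by
  rw [Finset.range_add_one, Finset.filter_insert]
  by_cases h : A m
  · rw [if_pos h, Finset.card_insert_of_notMem (by simp), Nat.odd_add_one]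
    simp [h]
  · simp [h]

theorem PLD_prop {a b x y z A B : Prop} (h1 : (a ↔ b) ↔ (x ↔ y)) (h2 : (A ↔ B) ↔ (y ↔ z)) :
    ((a ↔ ¬A) ↔ (b ↔ ¬B)) ↔ (x ↔ z) := by
  by_cases a <;> by_cases b <;> by_cases A <;> by_cases B <;> by_cases y <;> simp_all

open Classical in
theorem PLD_par (A B X : ℕ → Prop) (m : ℕ) (h : ∀ t < m, ((A t ↔ B t) ↔ (X t ↔ X (t + 1)))) :
    (Odd ((Finset.range m).filter A).card ↔ Odd ((Finset.range m).filter B).card) ↔
      (X 0 ↔ X m) := by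
  induction m with
  | zero => simp
  | succ m ih =>
    have h1 := ih fun t ht => h t (by omega)
    have h2 := h m (by omega)
    rw [PLD_succ, PLD_succ]
    exact PLD_prop h1 h2

theorem PLD_loc {v v' p q : V} (h : Adj v v') (hle : v.2 ≤ v'.2) (k : Adj p q) (h1 : p ≠ v)
    (h2 : p ≠ v') (h3 : q ≠ v) (h4 : q ≠ v') : (crossR v p q ↔ crossR v' p q) ↔
      ((v.2 < v'.2 ∧ p.2 = v'.2 ∧ v'.1 < p.1) ↔ (v.2 < v'.2 ∧ q.2 = v'.2 ∧ v'.1 < q.1)) := by
  simp only [ne_eq, Prod.ext_iff, adj_iff, crossR] at *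
  rcases h with h | h | h | h | h | h <;> rcases k with k | k | k | k | k | k <;> omega

theorem PLD_step {m : ℕ} {w : ℕ → V} (h0 : w m = w 0) (hw : ∀ t < m, Adj (w t) (w (t + 1)))
    {v v' : V} (h : Adj v v') (h1 : ∀ t ≤ m, w t ≠ v) (h2 : ∀ t ≤ m, w t ≠ v') :
    Odd (wind w m v) ↔ Odd (wind w m v') := by
  wlog hle : v.2 ≤ v'.2 generalizing v v'
  · exact (this h.symm h2 h1 (by omega)).symm
  refine (PLD_par _ _ (fun t => v.2 < v'.2 ∧ (w t).2 = v'.2 ∧ v'.1 < (w t).1) m fun t ht =>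
    PLD_loc h hle (hw t ht) (h1 t ht.le) (h2 t ht.le) (h1 _ ht) (h2 _ ht)).2 ?_
  rw [h0]

theorem PLD_conn {m : ℕ} {w : ℕ → V} (h0 : w m = w 0) (hw : ∀ t < m, Adj (w t) (w (t + 1)))
    {E : V → V → Prop} {S : Set V} (hS : ∀ t ≤ m, w t ∉ S) {a b : V} (h : Conn E S a b) :
    Odd (wind w m a) ↔ Odd (wind w m b) := by
  induction h with
  | refl => rfl
  | tail _ k ih =>
    exact ih.trans (PLD_step h0 hw k.1 (fun t ht e => hS t ht (e ▸ k.2.2.1))
      fun t ht e => hS t ht (e ▸ k.2.2.2))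

theorem PLD_out {m N : ℕ} {w : ℕ → V} (h0 : w m = w 0) (hw : ∀ t < m, Adj (w t) (w (t + 1)))
    {z b : V} (hN : ∀ t ≤ m, nrm (w t - z) ≤ N) (hb : N < nrm (b - z)) : ¬Odd (wind w m b) := by
  have key := (PLD_par (fun t => crossR b (w t) (w (t + 1))) (fun _ => False)
    (fun t => (b.1 < z.1 - N ∨ b.1 + b.2 < z.1 + z.2 - N) ∧ b.2 + 1 ≤ (w t).2) m fun t ht => by
      have a1 := nrm_sub_le_iff.1 (hN t ht.le)
      have a2 := nrm_sub_le_iff.1 (hN (t + 1) ht)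
      have a3 := le_nrm_sub_iff.1 (Nat.succ_le_of_lt hb)
      have a4 := adj_iff.1 (hw t ht)
      simp only [crossR, iff_false]
      push_cast at a3
      omega).2 (by rw [h0])
  intro h
  simpa using key.1 h

theorem pld : PLD := by
  rintro E z n N hE ⟨m, w, h0, h1, h2, h3⟩
  refine ⟨{v | ∃ t ≤ m, w t = v}, ?_, ?_, fun S a b ha hb haS hc => ?_⟩
  · rintro _ ⟨t, ht, rfl⟩
    exact h2 t ht
  · rintro _ ⟨s, hs, rfl⟩ _ ⟨t, ht, rfl⟩
    exact cn_trans (cn_symm hE (conn_of_walk h1 h2 (Nat.zero_le s) hs))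
      (conn_of_walk h1 h2 (Nat.zero_le t) ht)
  · by_contra hne
    have hw : ∀ t < m, Adj (w t) (w (t + 1)) := fun t ht => (h1 t ht).1
    have k1 := PLD_conn h0 hw (fun t ht e => hne ⟨w t, e, t, ht, rfl⟩) hc
    have k2 := PLD_conn h0 hw (S := hex z (nrm (a - z)))
      (fun t ht e => absurd ((h2 t ht).1.trans e) (not_le.2 ha)) (conn_hex (le_refl (nrm (a - z))))
    exact PLD_out h0 hw (fun t ht => (h2 t ht).2) hb (k1.1 (k2.1 h3))

end Vale.Agent.P153.RSW
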