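import Vale.Agent.P153.RSW.Stm

/-! The square root trick for finitely many events. -/

open Set Filter Topology

namespace Vale.Agent.P153.RSW

theorem pick_gd (C : ℕ) : Gd fun x => 1 - (1 - x) ^ (((C + 1 : ℕ) : ℝ)⁻¹) := by
  have hC : (0 : ℝ) < ((C + 1 : ℕ) : ℝ)⁻¹ := by positivity
  refine ⟨fun x hx => ⟨sub_pos.2 (Real.rpow_lt_one (by linarith [hx.2]) (by linarith [hx.1]) hC),
    sub_lt_self _ (Real.rpow_pos_of_pos (by linarith [hx.2]) _)⟩, ?_⟩
  have h : Continuous fun x : ℝ => 1 - (1 - x) ^ (((C + 1 : ℕ) : ℝ)⁻¹) :=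
    continuous_const.sub ((continuous_const.sub continuous_id).rpow_const fun _ => Or.inr hC.le)
  have h1 := (h.tendsto 1).mono_left (nhdsWithin_le_nhds (s := Iio 1))
  rwa [sub_self, Real.zero_rpow hC.ne', sub_zero] at h1

theorem pick_union {Ω ι : Type} {e : Ω → V → V → Prop} {P : Set Ω → ℝ} {R : ℕ} {η y : ℝ}
    (h : Hyp e P R η) (t : Finset ι) (F : ι → Set Ω) (hy : y ≤ 1) (hF : ∀ i, Up e (F i))
    (hP : ∀ i ∈ t, P (F i) ≤ y) : (1 - y) ^ t.card ≤ 1 - P (⋃ i ∈ t, F i) := by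
  classical
  suffices H : Up e (⋃ i ∈ t, F i) ∧ (1 - y) ^ t.card ≤ 1 - P (⋃ i ∈ t, F i) from H.2
  induction t using Finset.induction_on with
  | empty => exact ⟨fun _ _ _ k => by simp at k, by simp [h.empty]⟩
  | insert i t hi ih =>
    obtain ⟨h1, h2⟩ := ih fun j hj => hP j (Finset.mem_insert_of_mem hj)
    have h3 := hP i (Finset.mem_insert_self i t)
    rw [Finset.set_biUnion_insert, Finset.card_insert_of_notMem hi, pow_succ']
    exact ⟨(hF i).union h1, (mul_le_mul (by linarith) h2 (pow_nonneg (by linarith) _)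
      (by linarith [h.le_one (F i)])).trans (h.cofkg (hF i) h1)⟩

theorem pick : Pick := by
  intro C
  refine ⟨_, (pick_gd C).pow 1, fun p hp => ?_⟩
  obtain ⟨y0, y1⟩ := (pick_gd C).1 p hp
  have hy : ((1 - p) ^ (((C + 1 : ℕ) : ℝ)⁻¹)) ^ (C + 1) = 1 - p :=
    Real.rpow_inv_natCast_pow (by linarith [hp.2]) C.succ_ne_zero
  simp only at y0 y1 ⊢
  generalize (1 - p) ^ (((C + 1 : ℕ) : ℝ)⁻¹) = z at y0 y1 hy ⊢
  have z0 : 0 < z := by linarith
  have z1 : z < 1 := by linarith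
  refine ⟨(1 - z) * z, mul_pos y0 z0, fun Ω e P R h ι t S A B X hC hX hP => ?_⟩
  have h1 : ∃ i ∈ t, 1 - z < P (Ev e (S i) (A i) (B i)) := by
    by_contra hc
    have h2 := pick_union h t (fun i => Ev e (S i) (A i) (B i)) y1.le (fun _ => up_ev)
      fun i hi => not_lt.1 fun k => hc ⟨i, hi, k⟩
    rw [sub_sub_cancel] at h2
    have h3 : z ^ (C + 1) < z ^ t.card := pow_lt_pow_right_of_lt_one₀ z0 z1 (Nat.lt_succ_of_le hC)
    have h4 := h.mono hX
    linarith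
  obtain ⟨i, hi, h2⟩ := h1
  refine ⟨i, hi, fun g hg k1 k2 => ?_⟩
  have h3 := h.sym g hg _ (A i) (B i) k1 k2
  have h4 : (1 - z) ^ (1 + 1) = 1 - z - (1 - z) * z := by ring
  rw [h4]
  linarith

end Vale.Agent.P153.RSW
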