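import Vale.Agent.P153.RSW.Stm

/-! Three long crossings make a circuit. -/

open Set

namespace Vale.Agent.P153.RSW

/-- An open walk inside `S` together with the parity of its winding number. -/
def TriW (E : V → V → Prop) (S : Set V) (z a b : V) (π : Prop) : Prop :=
  ∃ (m : ℕ) (w : ℕ → V), w 0 = a ∧ w m = b ∧
    (∀ t < m, Adj (w t) (w (t + 1)) ∧ E (w t) (w (t + 1))) ∧ (∀ t ≤ m, w t ∈ S) ∧
    (Odd (wind w m z) ↔ π)

variable {E : V → V → Prop} {S T Q : Set V} {z a u v : V} {π : Prop}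

theorem tri_nil (ha : a ∈ S) : TriW E S z a a False :=
  ⟨0, fun _ => a, rfl, rfl, fun t ht => absurd ht (Nat.not_lt_zero t), fun _ _ => ha, by
    simp [wind]⟩

open Classical in
theorem tri_wind (w : ℕ → V) (m : ℕ) (z v : V) :
    wind (fun t => if t ≤ m then w t else v) (m + 1) z =
      wind w m z + if crossR z (w m) v then 1 else 0 := by
  have h1 : ((Finset.range m).filter fun t => crossR z (if t ≤ m then w t else v)
      (if t + 1 ≤ m then w (t + 1) else v)) =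
      (Finset.range m).filter fun t => crossR z (w t) (w (t + 1)) :=
    Finset.filter_congr fun t ht => by
      have h := Finset.mem_range.1 ht
      rw [if_pos h.le, if_pos (Nat.succ_le_of_lt h)]
  unfold wind
  rw [Finset.range_add_one, Finset.filter_insert, h1]
  simp only [le_refl, if_true, Nat.not_succ_le_self, if_false]
  split_ifs with h
  · rw [Finset.card_insert_of_notMem (by simp)]
  · rfl

theorem tri_tail (h : TriW E S z a u π) (h1 : Adj u v) (h2 : E u v) (hv : v ∈ S) :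
    TriW E S z a v (π ↔ ¬crossR z u v) := by
  obtain ⟨m, w, k0, k1, k2, k3, k4⟩ := h
  refine ⟨m + 1, fun t => if t ≤ m then w t else v, by simp [k0], by simp, fun t ht => ?_,
    fun t ht => ?_, ?_⟩
  · by_cases h4 : t < m
    · simp only [if_pos h4.le, if_pos (Nat.succ_le_of_lt h4)]
      exact k2 t h4
    · obtain rfl : t = m := by omega
      simp only [le_refl, if_true, Nat.not_succ_le_self, if_false, k1]
      exact ⟨h1, h2⟩
  · by_cases h4 : t ≤ m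
    · simp only [if_pos h4]
      exact k3 t h4
    · simp only [if_neg h4]
      exact hv
  · rw [tri_wind, k1, ← k4]
    by_cases hc : crossR z u v
    · simp [hc, Nat.odd_add_one]
    · simp [hc]

theorem tri_congr {π' : Prop} (h : TriW E S z a u π) (hπ : π ↔ π') : TriW E S z a u π' :=
  propext hπ ▸ h

theorem tri_ext (φ : V → Prop) (h : TriW E S z a u π) (hc : Conn E Q u v) (hQ : Q ⊆ S)
    (hφ : ∀ x ∈ Q, ∀ y ∈ Q, Adj x y → (crossR z x y ↔ ¬(φ x ↔ φ y))) :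
    TriW E S z a v (π ↔ (φ u ↔ φ v)) := by
  induction hc with
  | refl => exact tri_congr h (by simp)
  | @tail x y _ k ih =>
    refine tri_congr (tri_tail ih k.1 k.2.1 (hQ k.2.2.2)) ?_
    rw [hφ x k.2.2.1 y k.2.2.2 k.1]
    tauto

theorem tri_tr (z v : V) : (tr z).symm v = (v.1 - z.1, v.2 - z.2) := by
  ext <;> simp [tr, sub_eq_add_neg]

theorem tri_side (b : ℕ) (v : V) : (side b).symm v = (v.1 + b, v.2 + b) := by
  rw [side, tri_tr]; simp

theorem tri_r3s (v : V) : r3.symm v = (v.2, -v.1 - v.2) := rfl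

theorem tri_r3 (v : V) : r3 v = (-v.1 - v.2, v.1) := rfl

theorem tri_meet (h : PLC) {a b : ℕ} (h1 : 1 ≤ a) (h2 : a ≤ b) {g : V ≃ V} (hg : IsSym g)
    {x y x' y' : V}
    (hS : ∀ v ∈ S, -(b : ℤ) ≤ (g v).1 ∧ (g v).1 ≤ 2 * b ∧ -(b : ℤ) ≤ (g v).2 ∧ (g v).2 ≤ -a)
    (hT : ∀ v ∈ T, -(b : ℤ) ≤ (g v).2 ∧ (g v).2 ≤ 2 * b ∧ (a : ℤ) ≤ (g v).1 + (g v).2 ∧
      (g v).1 + (g v).2 ≤ b)
    (hx : x ∈ S) (hxy : Conn E S x y) (e1 : (g x).1 = -b) (e2 : (g y).1 = 2 * b)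
    (hx' : x' ∈ T) (hxy' : Conn E T x' y') (e3 : (g x').2 = -b) (e4 : (g y').2 = 2 * b) :
    (S ∩ T).Nonempty := by
  obtain ⟨v, ⟨s, hs, k1⟩, ⟨t, ht, k2⟩⟩ := h a b (g '' S) (g '' T) (g x) (g y) (g x') (g y') h1 h2
    (by
      rintro _ ⟨v, hv, rfl⟩
      have := hS v hv
      simp only [mem_image_equiv, tri_side, box, mem_ofPred_eq]
      omega)
    (by
      rintro _ ⟨v, hv, rfl⟩
      have := hT v hv
      simp only [mem_image_equiv, tri_side, tri_r3s, box, mem_ofPred_eq]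
      omega)
    (mem_image_of_mem _ hx) (cn_map hg (fun _ _ _ => trivial) hxy) e1 e2
    (mem_image_of_mem _ hx') (cn_map hg (fun _ _ _ => trivial) hxy') e3 e4
  obtain rfl : s = t := g.injective (k1.trans k2.symm)
  exact ⟨s, hs, ht⟩

theorem tri_ann {a N : ℕ} : v ∈ ann z a N ↔
    ((a : ℤ) ≤ v.1 - z.1 ∨ v.1 - z.1 ≤ -a ∨ (a : ℤ) ≤ v.2 - z.2 ∨ v.2 - z.2 ≤ -a ∨
      (a : ℤ) ≤ v.1 - z.1 + (v.2 - z.2) ∨ v.1 - z.1 + (v.2 - z.2) ≤ -a) ∧ v ∈ hex z N := by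
  refine and_congr_left' ?_
  simp only [nrm, Prod.fst_sub, Prod.snd_sub]
  omega

theorem tri (h : PLC) : Tri := by
  rintro Ω e z a b hs h1 h2 ω ⟨⟨⟨x₁, a₁, y₁, b₁, q₁, c₁⟩, x₂, a₂, y₂, b₂, q₂, c₂⟩, x₃, a₃, y₃, b₃,
    q₃, c₃⟩
  set Q₁ := (side b).trans (tr z) '' box (b - a) (3 * b) with hQ₁
  set Q₂ := ((side b).trans r3).trans (tr z) '' box (b - a) (3 * b) with hQ₂
  set Q₃ := (((side b).trans r3).trans r3).trans (tr z) '' box (b - a) (3 * b) with hQ₃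
  have m₁ : ∀ v ∈ Q₁, -(b : ℤ) ≤ v.1 - z.1 ∧ v.1 - z.1 ≤ 2 * b ∧ -(b : ℤ) ≤ v.2 - z.2 ∧
      v.2 - z.2 ≤ -a := fun v hv => by
    simp only [hQ₁, mem_image_equiv, Equiv.symm_trans_apply, tri_side, tri_tr, box,
      mem_ofPred_eq] at hv
    omega
  have m₂ : ∀ v ∈ Q₂, -(b : ℤ) ≤ v.2 - z.2 ∧ v.2 - z.2 ≤ 2 * b ∧
      (a : ℤ) ≤ v.1 - z.1 + (v.2 - z.2) ∧ v.1 - z.1 + (v.2 - z.2) ≤ b := fun v hv => by
    simp only [hQ₂, mem_image_equiv, Equiv.symm_trans_apply, tri_side, tri_tr, tri_r3s, box,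
      mem_ofPred_eq] at hv
    omega
  have m₃ : ∀ v ∈ Q₃, -(b : ℤ) ≤ v.1 - z.1 ∧ v.1 - z.1 ≤ -a ∧
      -(2 * b : ℤ) ≤ v.1 - z.1 + (v.2 - z.2) ∧ v.1 - z.1 + (v.2 - z.2) ≤ b := fun v hv => by
    simp only [hQ₃, mem_image_equiv, Equiv.symm_trans_apply, tri_side, tri_tr, tri_r3s, box,
      mem_ofPred_eq] at hv
    omega
  simp only [mem_image_equiv, Equiv.symm_trans_apply, tri_side, tri_tr, tri_r3s,
    mem_ofPred_eq] at a₁ b₁ a₂ b₂ a₃ b₃
  have g0 := isSym_symm (isSym_tr z)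
  obtain ⟨v₁₂, k₁, k₂⟩ := tri_meet h h1 h2 g0 (S := {v | v ∈ Q₁ ∧ Conn (e ω) Q₁ x₁ v})
    (T := {v | v ∈ Q₂ ∧ Conn (e ω) Q₂ x₂ v})
    (fun v hv => by have := m₁ v hv.1; simp only [tri_tr]; omega)
    (fun v hv => by have := m₂ v hv.1; simp only [tri_tr]; omega)
    ⟨q₁, cn_refl⟩ (cn_cluster c₁) (by simp only [tri_tr]; omega) (by simp only [tri_tr]; omega)
    ⟨q₂, cn_refl⟩ (cn_cluster c₂) (by simp only [tri_tr]; omega) (by simp only [tri_tr]; omega)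
  obtain ⟨v₂₃, k₃, k₄⟩ := tri_meet h h1 h2 (isSym_trans g0 (isSym_symm isSym_r3))
    (S := {v | v ∈ Q₂ ∧ Conn (e ω) Q₂ x₂ v}) (T := {v | v ∈ Q₃ ∧ Conn (e ω) Q₃ x₃ v})
    (fun v hv => by have := m₂ v hv.1; simp only [Equiv.trans_apply, tri_tr, tri_r3s]; omega)
    (fun v hv => by have := m₃ v hv.1; simp only [Equiv.trans_apply, tri_tr, tri_r3s]; omega)
    ⟨q₂, cn_refl⟩ (cn_cluster c₂) (by simp only [Equiv.trans_apply, tri_tr, tri_r3s]; omega)
    (by simp only [Equiv.trans_apply, tri_tr, tri_r3s]; omega)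
    ⟨q₃, cn_refl⟩ (cn_cluster c₃) (by simp only [Equiv.trans_apply, tri_tr, tri_r3s]; omega)
    (by simp only [Equiv.trans_apply, tri_tr, tri_r3s]; omega)
  obtain ⟨v₃₁, k₅, k₆⟩ := tri_meet h h1 h2 (isSym_trans g0 isSym_r3)
    (S := {v | v ∈ Q₃ ∧ Conn (e ω) Q₃ x₃ v}) (T := {v | v ∈ Q₁ ∧ Conn (e ω) Q₁ x₁ v})
    (fun v hv => by have := m₃ v hv.1; simp only [Equiv.trans_apply, tri_tr, tri_r3]; omega)
    (fun v hv => by have := m₁ v hv.1; simp only [Equiv.trans_apply, tri_tr, tri_r3]; omega)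
    ⟨q₃, cn_refl⟩ (cn_cluster c₃) (by simp only [Equiv.trans_apply, tri_tr, tri_r3]; omega)
    (by simp only [Equiv.trans_apply, tri_tr, tri_r3]; omega)
    ⟨q₁, cn_refl⟩ (cn_cluster c₁) (by simp only [Equiv.trans_apply, tri_tr, tri_r3]; omega)
    (by simp only [Equiv.trans_apply, tri_tr, tri_r3]; omega)
  have s₁ : Q₁ ⊆ ann z a (2 * b) := fun v hv => by
    have := m₁ v hv; rw [tri_ann, mem_hex]; omega
  have s₂ : Q₂ ⊆ ann z a (2 * b) := fun v hv => by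
    have := m₂ v hv; rw [tri_ann, mem_hex]; omega
  have s₃ : Q₃ ⊆ ann z a (2 * b) := fun v hv => by
    have := m₃ v hv; rw [tri_ann, mem_hex]; omega
  have w₀ : TriW (e ω) (ann z a (2 * b)) z v₃₁ v₃₁ False := tri_nil (s₁ k₆.1)
  have w₁ := tri_ext (fun _ => True) w₀ (cn_trans (cn_symm (hs ω) k₆.2) k₁.2) s₁
    fun x hx y hy _ => by
      have i1 := m₁ x hx
      have i2 := m₁ y hy
      simp only [crossR, not_true, iff_false]
      omega
  have w₂ := tri_ext (fun v => z.2 + 1 ≤ v.2) w₁ (cn_trans (cn_symm (hs ω) k₂.2) k₃.2) s₂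
    fun x hx y hy hxy => by
      have i1 := m₂ x hx
      have i2 := m₂ y hy
      rw [adj_iff] at hxy
      simp only [crossR]
      omega
  have w₃ := tri_ext (fun _ => True) w₂ (cn_trans (cn_symm (hs ω) k₄.2) k₅.2) s₃
    fun x hx y hy _ => by
      have i1 := m₃ x hx
      have i2 := m₃ y hy
      simp only [crossR, not_true, iff_false]
      omega
  obtain ⟨m, w, j0, j1, j2, j3, j4⟩ := w₃
  refine ⟨m, w, j1.trans j0.symm, j2, j3, j4.2 ?_⟩
  have i1 := m₁ _ k₁.1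
  have i2 := m₂ _ k₃.1
  have i3 := m₃ _ k₄.1
  have i4 : ¬z.2 + 1 ≤ v₁₂.2 := by omega
  have i5 : z.2 + 1 ≤ v₂₃.2 := by omega
  simp only [i4, i5, iff_true]

end Vale.Agent.P153.RSW
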