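import Vale.Agent.P153.RSW.PLA
import Vale.Agent.P153.RSW.PLB
import Vale.Agent.P153.RSW.PLC
import Vale.Agent.P153.RSW.PLD
import Vale.Agent.P153.RSW.Tri
import Vale.Agent.P153.RSW.Pick
import Vale.Agent.P153.RSW.Chain
import Vale.Agent.P153.RSW.L1
import Vale.Agent.P153.RSW.L1c
import Vale.Agent.P153.RSW.L2
import Vale.Agent.P153.RSW.L3
import Vale.Agent.P153.RSW.L4
import Vale.Agent.P153.RSW.L5
import Vale.Agent.P153.RSW.Main
import Vale.Agent.P153.RSW.Out
import Vale.Agent.P153.RSW.Avg

/-! Abstract RSW theory: the final statements. -/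

namespace Vale.Agent.P153.RSW

theorem l1_all : L1 := l1 pick (chain (plb pla))

theorem l1c_all : L1c := l1c l1_all (tri (plc pla))

theorem armW_all : ArmW :=
  armW (l2 pick) (main (l2 pick) (l3 pick) (l4 pla) l5 (l6 pld) l1c_all)

theorem rswc_all : RSWc := rswc armW_all l1c_all

theorem rswx_all : RSWx := rswx armW_all l1_all

end Vale.Agent.P153.RSW
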